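import Vale.Agent.P181.R2.H182.VDefs

set_option autoImplicit false

open scoped TensorProduct

namespace Vale.Agent.P181.VT

open Vale.Agent.P181 Vale.Agent.P181.H280 Vale.Agent.P181.FR

/-- A homogeneous polynomial at a multiple of a point. -/
lemma eval_smul_pt {m c : ℕ} (q : MvPolynomial (Fin m) ℂ) (hq : q.IsHomogeneous c) (s : ℂ)
    (x : Fin m → ℂ) : MvPolynomial.eval (s • x) q = s ^ c * MvPolynomial.eval x q := by
  rw [MvPolynomial.eval_eq', MvPolynomial.eval_eq', Finset.mul_sum]
  apply Finset.sum_congr rfl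
  intro d hd
  have h1 : ∑ i, d i = c := by
    have h2 := hq (MvPolynomial.mem_support_iff.1 hd)
    have h4 : d.degree = c := by
      rw [Finsupp.degree_eq_weight_one]
      exact h2
    rw [Finsupp.degree_eq_sum] at h4
    exact h4
  have h3 : ∏ i, (s • x) i ^ d i = s ^ c * ∏ i, x i ^ d i := by
    rw [← h1, ← Finset.prod_pow_eq_pow_sum, ← Finset.prod_mul_distrib]
    apply Finset.prod_congr rfl
    intro i _
    rw [Pi.smul_apply, smul_eq_mul, mul_pow]
  rw [h3]
  ring

/-- Functions in `MP B m c` are homogeneous of degree `B c`. -/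
lemma mp_smul {B m c : ℕ} {F : (Fin B → Fin m → ℂ) → ℂ} (hF : F ∈ MP B m c) (s : ℂ)
    (p : Fin B → Fin m → ℂ) : F (fun j => s • p j) = s ^ (B * c) * F p := by
  induction hF using Submodule.span_induction with
  | mem G hG =>
    obtain ⟨q, hq, rfl⟩ := hG
    simp only
    have h1 : ∀ j, MvPolynomial.eval (s • p j) (q j) = s ^ c * MvPolynomial.eval (p j) (q j) :=
      fun j => eval_smul_pt (q j) (hq j) s (p j)
    simp only [h1]
    rw [Finset.prod_mul_distrib, Finset.prod_const, Finset.card_univ, Fintype.card_fin, ← pow_mul,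
      Nat.mul_comm c B]
  | zero => simp
  | add G G' _ _ h1 h2 =>
    rw [Pi.add_apply, Pi.add_apply, h1, h2]
    ring
  | smul t G _ h1 =>
    rw [Pi.smul_apply, Pi.smul_apply, h1, smul_eq_mul, smul_eq_mul]
    ring

/-- The frame of a transformed block. -/
lemma Yb_mul {r : ℕ} (w : Fin (nn r) → Fin (r + 1) → ℂ)
    (g : Matrix (Fin (r + 1)) (Fin (r + 1)) ℂ) :
    Yb (fun s => Matrix.vecMul (w s) g) = g.det ^ 2 • (g.adjugate * Yb w) := by
  have hA : WA (fun s => Matrix.vecMul (w s) g) = WA w * g := by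
    ext i j
    simp only [WA, Matrix.mul_apply, Matrix.vecMul, dotProduct]
  have hB : ∀ i, WB (fun s => Matrix.vecMul (w s) g) i = WB w i * g := by
    intro i
    ext u j
    rw [Matrix.mul_apply]
    refine Fin.cases ?_ (fun u => ?_) u
    · simp only [WB, Matrix.vecMul, dotProduct, Fin.cons_zero]
    · simp only [WB, Matrix.vecMul, dotProduct, Fin.cons_succ]
  have hC : WC (fun s => Matrix.vecMul (w s) g) = WC w * g := by
    ext i j
    simp only [WC, Matrix.mul_apply, Matrix.vecMul, dotProduct]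
  have hD : Matrix.diagonal (fun i => (WB (fun s => Matrix.vecMul (w s) g) i).det *
      (WC (fun s => Matrix.vecMul (w s) g)).det) =
      g.det ^ 2 • Matrix.diagonal (fun i => (WB w i).det * (WC w).det) := by
    rw [← Matrix.diagonal_smul]
    congr 1
    funext i
    rw [hB, hC, Matrix.det_mul, Matrix.det_mul, Pi.smul_apply, smul_eq_mul]
    ring
  rw [Yb, Yb, hD, hA, Matrix.adjugate_mul_distrib, Matrix.mul_smul, Matrix.mul_assoc]

/-- The mixed frame of a transformed configuration. -/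
lemma YY_mul {r k : ℕ} (t : Fin k → ℂ) (p : Fin (k * nn r) → Fin (r + 1) → ℂ)
    (g : Matrix (Fin (r + 1)) (Fin (r + 1)) ℂ) :
    YY t (fun j => Matrix.vecMul (p j) g) = g.det ^ 2 • (g.adjugate * YY t p) := by
  rw [YY, YY, Finset.mul_sum, Finset.smul_sum]
  apply Finset.sum_congr rfl
  intro β _
  have h1 : pt (fun j => Matrix.vecMul (p j) g) β = fun s => Matrix.vecMul (pt p β s) g := rfl
  rw [h1, Yb_mul, Matrix.mul_smul, smul_comm]

/-- Row V3: invariance. -/
theorem v3 : ∀ {r k c N : ℕ} (τ : Fin N → Fin k → ℂ) (α : Fin N → ℂ)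
    (H : Matrix (Fin (r + 1)) (Fin (r + 1)) ℂ)
    (F : (Fin (k * nn r) → Fin (r + 1) → ℂ) → ℂ), F ∈ MP (k * nn r) (r + 1) c →
    HWF (k * nn r) (r + 1) ((3 * (k * nn r * c)) • om (r + 1) (r + 1)) (TH τ α H F) := by
  intro r k c N τ α H F hF g hg p
  have hdet : g.det = ∏ i, g i i := Matrix.det_of_isUpperTriangular (fun i j hij => hg.1 i j hij)
  have hprod : ∏ i, g i i ^ (((3 * (k * nn r * c)) • om (r + 1) (r + 1)) i) =
      g.det ^ (3 * (k * nn r * c)) := by
    rw [hdet, ← Finset.prod_pow]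
    apply Finset.prod_congr rfl
    intro i _
    rw [Pi.smul_apply, om, if_pos i.2, smul_eq_mul, Nat.mul_one]
  rw [hprod]
  simp only [TH]
  rw [Finset.mul_sum]
  apply Finset.sum_congr rfl
  intro i _
  have key : (fun j => Matrix.vecMul (Matrix.vecMul (p j) g)
      (YY (τ i) (fun j => Matrix.vecMul (p j) g) * H)) =
      fun j => g.det ^ 3 • Matrix.vecMul (p j) (YY (τ i) p * H) := by
    funext j
    rw [YY_mul, Matrix.vecMul_vecMul, Matrix.smul_mul, Matrix.mul_smul, Matrix.mul_assoc,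
      ← Matrix.mul_assoc g, Matrix.mul_adjugate, Matrix.smul_mul, Matrix.one_mul, smul_smul,
      Matrix.vecMul_smul]
    congr 1
  rw [key, mp_smul hF, ← pow_mul]
  ring

end Vale.Agent.P181.VT
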