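import Mathlib

/-!
P181, three rows below the square: the pure recursion (row M5 of helper151).
-/

namespace Vale.Agent.P181.R2.H424.Rec74

/-- The two inputs of the recursion, for a fixed number `a` of slots. -/
structure Inp (a : ℕ) (K : ℕ → ℕ → Prop) : Prop where
  base : ∀ b t s, 1 ≤ s → t + (a - 1) * (s * (s + 1) - 1) ≤ s * b → K b t
  step : ∀ b t s, 1 ≤ s → 2 * a ≤ b + 1 → (∀ t', t' + s ≤ t → K b t') →
    2 * ((s - 1) * (b + 1)) + 3 * (a * (a + 1)) < 6 * t → K (b + 1) t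

/-- The invariant at level `b = c + 2`, started at level `c0 + 2` with the parameter `m`. -/
def Good (n m c0 : ℕ) (K : ℕ → ℕ → Prop) (c : ℕ) : Prop :=
  ∃ T y : ℕ, n * (m ^ 2 + 1) ≤ T ∧ 2 * y + (n + 1) * (n + 2) = 2 * T + 2 ∧
    (∀ t, t ≤ T → K (c + 2) t) ∧
    n * (2 * m ^ 2 - (n + 1)) * ((c + 2) * (c + 1) * c) ≤ 2 * y * ((c0 + 2) * (c0 + 1) * c0)

theorem base_all {n m : ℕ} {K : ℕ → ℕ → Prop} (H : Inp (n + 1) K) (hm : 1 ≤ m) {b : ℕ}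
    (hb : n * (2 * m + 1) ≤ b) {t : ℕ} (ht : t ≤ n * (m ^ 2 + 1)) : K b t := by
  refine H.base b t m hm ?_
  rw [Nat.add_sub_cancel]
  have h1 : 1 ≤ m * (m + 1) := by nlinarith
  obtain ⟨e, he⟩ := Nat.exists_eq_add_of_le h1
  have h2 : m * (m + 1) - 1 = e := by omega
  rw [h2]
  have h3 : n * (m * (m + 1)) = n * (1 + e) := by rw [he]
  have h4 : m * (n * (2 * m + 1)) ≤ m * b := Nat.mul_le_mul_left _ hb
  nlinarith

theorem good_start {n m c0 : ℕ} {K : ℕ → ℕ → Prop} (H : Inp (n + 1) K) (hm : 1 ≤ m)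
    (hnm : n + 1 < 2 * m ^ 2) (hc : c0 + 2 = n * (2 * m + 1)) : Good n m c0 K c0 := by
  obtain ⟨M, hM⟩ : ∃ M, (n + 1) * (n + 2) = 2 * M := by
    obtain ⟨M, hM⟩ := Nat.even_mul_succ_self (n + 1)
    exact ⟨M, by rw [two_mul]; exact hM⟩
  obtain ⟨g, hg⟩ := Nat.exists_eq_add_of_lt hnm
  have hg' : 2 * m ^ 2 - (n + 1) = g + 1 := by omega
  have hn : 1 ≤ n := by
    rcases Nat.eq_zero_or_pos n with h | h
    · rw [h] at hc; omega
    · exact h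
  have e1 : 2 * (n * (m ^ 2 + 1)) + 2 = n * (g + 1) + (n + 1) * (n + 2) := by
    have : 2 * (n * (m ^ 2 + 1)) + 2 = n * (2 * m ^ 2) + 2 * n + 2 := by ring
    rw [this, hg]; ring
  refine ⟨n * (m ^ 2 + 1), n * (m ^ 2 + 1) + 1 - M, le_refl _, by omega, ?_, ?_⟩
  · intro t ht
    exact base_all H hm (by omega) ht
  · rw [hg']
    refine Nat.mul_le_mul_right _ ?_
    omega

theorem good_step {n m c0 : ℕ} {K : ℕ → ℕ → Prop} (H : Inp (n + 1) K) (hm : 1 ≤ m)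
    (hnm : n + 1 < 2 * m ^ 2) (hn : 1 ≤ n)
    {c : ℕ} (hc : n * (2 * m + 1) ≤ c + 2) (hcc : 1 ≤ c)
    (h : Good n m c0 K c) : Good n m c0 K (c + 1) := by
  obtain ⟨T, y, hT0, hy, hT, hI⟩ := h
  obtain ⟨g, hg⟩ := Nat.exists_eq_add_of_lt hnm
  have hg' : 2 * m ^ 2 - (n + 1) = g + 1 := by omega
  have hc3 : n * (2 * m + 1) ≤ c + 3 := by omega
  have h2a : 2 * (n + 1) ≤ c + 2 + 1 := by nlinarith
  have e1 : 2 * (n * (m ^ 2 + 1)) + 2 = n * (g + 1) + (n + 1) * (n + 2) := by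
    have : 2 * (n * (m ^ 2 + 1)) + 2 = n * (2 * m ^ 2) + 2 * n + 2 := by ring
    rw [this, hg]; ring
  have hy0 : 0 < y := by
    have : 0 < n * (g + 1) := by positivity
    omega
  obtain ⟨s, hs1, hs2, hs3⟩ : ∃ s : ℕ, 1 ≤ s ∧ 3 * y ≤ s * c ∧ (s - 1) * c < 3 * y := by
    refine ⟨(3 * y - 1) / c + 1, Nat.le_add_left _ _, ?_, ?_⟩
    · have h1 := Nat.lt_div_mul_add (a := 3 * y - 1) (b := c) (by omega)
      have h2 : ((3 * y - 1) / c + 1) * c = (3 * y - 1) / c * c + c := by ring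
      omega
    · rw [Nat.add_sub_cancel]
      have h1 := Nat.div_mul_le_self (3 * y - 1) c
      omega
  refine ⟨T + s, y + s, by omega, by omega, ?_, ?_⟩
  · intro t ht
    rcases Nat.lt_or_ge T t with h1 | h1
    · -- a new weight
      obtain ⟨v, hv⟩ := Nat.exists_eq_add_of_lt h1
      refine H.step (c + 2) t (v + 1) (by omega) h2a (fun t' ht' => hT t' (by omega)) ?_
      rw [Nat.add_sub_cancel]
      have hvs : v * c ≤ (s - 1) * c := Nat.mul_le_mul_right _ (by omega)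
      have e2 : v * (c + 2 + 1) = v * c + 3 * v := by ring
      have e3 : (n + 1) * (n + 1 + 1) = (n + 1) * (n + 2) := by ring
      rw [e2, e3]
      omega
    · rcases Nat.lt_or_ge (n * (m ^ 2 + 1)) t with h2 | h2
      · refine H.step (c + 2) t 1 (le_refl _) h2a (fun t' ht' => hT t' (by omega)) ?_
        have e3 : (n + 1) * (n + 1 + 1) = (n + 1) * (n + 2) := by ring
        rw [e3]
        have : 0 < n * (g + 1) := by positivity
        simp only [Nat.sub_self, Nat.zero_mul, Nat.mul_zero, Nat.zero_add]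
        omega
      · exact base_all H hm (by omega) h2
  · set D := (c0 + 2) * (c0 + 1) * c0 with hD
    set Y := n * (2 * m ^ 2 - (n + 1)) with hY
    have h1 : y * (c + 3) ≤ (y + s) * c := by nlinarith
    have h2 : Y * ((c + 2) * (c + 1) * c) * (c + 3) ≤ 2 * (y + s) * D * c := by
      calc Y * ((c + 2) * (c + 1) * c) * (c + 3) ≤ 2 * y * D * (c + 3) :=
            Nat.mul_le_mul_right _ hI
        _ = 2 * (y * (c + 3)) * D := by ring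
        _ ≤ 2 * ((y + s) * c) * D :=
            Nat.mul_le_mul_right _ (Nat.mul_le_mul_left _ h1)
        _ = 2 * (y + s) * D * c := by ring
    have h3 : Y * ((c + 2) * (c + 1) * c) * (c + 3) =
        Y * ((c + 1 + 2) * (c + 1 + 1) * (c + 1)) * c := by ring
    rw [h3] at h2
    exact Nat.le_of_mul_le_mul_right h2 (by omega)

theorem good_all {n m c0 : ℕ} {K : ℕ → ℕ → Prop} (H : Inp (n + 1) K) (hm : 1 ≤ m)
    (hnm : n + 1 < 2 * m ^ 2) (hn : 1 ≤ n) (hc0 : c0 + 2 = n * (2 * m + 1)) {c : ℕ}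
    (hc : c0 ≤ c) : Good n m c0 K c := by
  have h1 : 1 ≤ c0 := by nlinarith
  induction c, hc using Nat.le_induction with
  | base => exact good_start H hm hnm hc0
  | succ c hc ih => exact good_step H hm hnm hn (by omega) (by omega) ih

/-- **The cubic tail bound**: `3 t ≤ a b` from one inequality. -/
theorem tail {n m c0 : ℕ} {K : ℕ → ℕ → Prop} (H : Inp (n + 1) K) (hm : 1 ≤ m)
    (hnm : n + 1 < 2 * m ^ 2) (hn : 1 ≤ n) (hc0 : c0 + 2 = n * (2 * m + 1)) {c t : ℕ}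
    (hc : c0 ≤ c)
    (hq : 2 * ((n + 1) * (c + 2)) * ((c0 + 2) * (c0 + 1) * c0) <
      3 * (n * (2 * m ^ 2 - (n + 1)) * ((c + 2) * (c + 1) * c)) +
        3 * ((n + 1) * (n + 2)) * ((c0 + 2) * (c0 + 1) * c0))
    (ht : 3 * t ≤ (n + 1) * (c + 2)) : K (c + 2) t := by
  obtain ⟨T, y, hT0, hy, hT, hI⟩ := good_all H hm hnm hn hc0 hc
  refine hT t ?_
  by_contra hcon
  set D := (c0 + 2) * (c0 + 1) * c0 with hD
  have h1 : 2 * (3 * (T + 1)) ≤ 2 * ((n + 1) * (c + 2)) := by omega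
  have h2 : 2 * (3 * (T + 1)) * D ≤ 2 * ((n + 1) * (c + 2)) * D := Nat.mul_le_mul_right _ h1
  have h3 : 2 * (3 * (T + 1)) * D = 3 * (2 * y * D) + 3 * ((n + 1) * (n + 2)) * D := by
    have : 2 * (3 * (T + 1)) = 3 * (2 * y) + 3 * ((n + 1) * (n + 2)) := by omega
    rw [this]; ring
  omega

/-- The final inequality, at all levels. -/
def Fin1 (a m b : ℕ) : Prop :=
  2 * (a * b) * ((a - 1) * (2 * m + 1) * ((a - 1) * (2 * m + 1) - 1) *
    ((a - 1) * (2 * m + 1) - 2)) <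
  3 * ((a - 1) * (2 * m ^ 2 - a) * (b * (b - 1) * (b - 2))) +
  3 * (a * (a + 1)) * ((a - 1) * (2 * m + 1) * ((a - 1) * (2 * m + 1) - 1) *
    ((a - 1) * (2 * m + 1) - 2))

theorem tail' {a m b t : ℕ} {K : ℕ → ℕ → Prop} (ha : 2 ≤ a) (H : Inp a K) (hm : 1 ≤ m)
    (hnm : a < 2 * m ^ 2) (hb : (a - 1) * (2 * m + 1) ≤ b) (hq : Fin1 a m b)
    (ht : 3 * t ≤ a * b) : K b t := by
  obtain ⟨n, rfl⟩ : ∃ n, a = n + 1 := ⟨a - 1, by omega⟩
  rw [Nat.add_sub_cancel] at hb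
  have h3 : 3 ≤ n * (2 * m + 1) := by nlinarith
  obtain ⟨c0, hc0⟩ : ∃ c0, c0 + 2 = n * (2 * m + 1) := ⟨n * (2 * m + 1) - 2, by omega⟩
  obtain ⟨c, rfl⟩ : ∃ c, b = c + 2 := ⟨b - 2, by omega⟩
  refine tail H hm hnm (by omega) hc0 (by omega) ?_ ht
  rw [Fin1, Nat.add_sub_cancel, ← hc0] at hq
  exact hq

/-! ### The numbers -/

/-- For `a = i + 2`: the parameter `m` and the least `b` with `29 * a ^ 7 ≤ b ^ 4`. -/
def tab : List (ℕ × ℕ) := [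
  (2, 8), (3, 16), (3, 27), (3, 39), (4, 54), (4, 70), (4, 89), (4, 109), (4, 131), (5, 155),
  (5, 180), (5, 207), (5, 236), (5, 266), (5, 298), (6, 331), (6, 366), (6, 402), (6, 439),
  (6, 479), (6, 519), (6, 561), (7, 604), (7, 649), (7, 695), (7, 743), (7, 791), (7, 841),
  (7, 893), (7, 946), (7, 1000), (8, 1055), (8, 1111), (8, 1169), (8, 1228), (8, 1289),
  (8, 1350), (8, 1413), (8, 1477), (8, 1542), (8, 1608), (9, 1676), (9, 1745), (9, 1815),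
  (9, 1886), (9, 1958), (9, 2032), (9, 2106), (9, 2182), (9, 2259), (9, 2337), (9, 2416),
  (10, 2497), (10, 2578), (10, 2661), (10, 2744), (10, 2829), (10, 2915), (10, 3002), (10, 3090),
  (10, 3179), (10, 3270), (10, 3361), (10, 3454), (10, 3547), (11, 3642), (11, 3737), (11, 3834),
  (11, 3932), (11, 4030), (11, 4130), (11, 4231), (11, 4333), (11, 4436), (11, 4540), (11, 4645),
  (11, 4751), (11, 4858), (11, 4967), (12, 5076), (12, 5186), (12, 5297), (12, 5409), (12, 5522),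
  (12, 5637), (12, 5752), (12, 5868), (12, 5985), (12, 6103), (12, 6222), (12, 6343), (12, 6464),
  (12, 6586), (12, 6709), (13, 6833), (13, 6958), (13, 7084), (13, 7211), (13, 7339), (13, 7468),
  (13, 7598), (13, 7728), (13, 7860), (13, 7993), (13, 8127), (13, 8261), (13, 8397), (13, 8533),
  (13, 8671), (13, 8809), (13, 8949), (14, 9089), (14, 9230), (14, 9372), (14, 9515), (14, 9659),
  (14, 9804), (14, 9950), (14, 10097), (14, 10245), (14, 10393), (14, 10543), (14, 10693),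
  (14, 10845), (14, 10997), (14, 11150), (14, 11304), (14, 11459), (14, 11615), (15, 11772),
  (15, 11929), (15, 12088), (15, 12248), (15, 12408), (15, 12569), (15, 12731), (15, 12895),
  (15, 13058), (15, 13223), (15, 13389), (15, 13556), (15, 13723), (15, 13892), (15, 14061),
  (15, 14231), (15, 14402), (15, 14574), (15, 14747), (16, 14920), (16, 15095), (16, 15270),
  (16, 15446), (16, 15623), (16, 15801), (16, 15980), (16, 16160), (16, 16340), (16, 16522),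
  (16, 16704), (16, 16887), (16, 17071), (16, 17256), (16, 17442), (16, 17628), (16, 17816),
  (16, 18004), (16, 18193), (16, 18383), (16, 18574)]

/-- The finite check. -/
def chk (a m b : ℕ) : Bool :=
  decide (1 ≤ m) && decide (a < 2 * m ^ 2) && decide (1 ≤ b) && decide ((b - 1) ^ 4 < 29 * a ^ 7) &&
  decide ((a - 1) * (2 * m + 1) ≤ b) &&
  decide (2 * a * ((a - 1) * (2 * m + 1) * ((a - 1) * (2 * m + 1) - 1) *
    ((a - 1) * (2 * m + 1) - 2)) ≤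
    3 * ((a - 1) * (2 * m ^ 2 - a) * (3 * b ^ 2 - 6 * b + 2))) &&
  decide (2 * (a * b) * ((a - 1) * (2 * m + 1) * ((a - 1) * (2 * m + 1) - 1) *
    ((a - 1) * (2 * m + 1) - 2)) <
  3 * ((a - 1) * (2 * m ^ 2 - a) * (b * (b - 1) * (b - 2))) +
  3 * (a * (a + 1)) * ((a - 1) * (2 * m + 1) * ((a - 1) * (2 * m + 1) - 1) *
    ((a - 1) * (2 * m + 1) - 2)))

theorem chk_all : ∀ i : Fin 169, chk (i.1 + 2) (tab.getD i.1 (0, 0)).1
    (tab.getD i.1 (0, 0)).2 = true := by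
  decide +kernel

theorem key_small {a : ℕ} (ha : 2 ≤ a) (ha' : a < 171) : ∃ m, 1 ≤ m ∧ a < 2 * m ^ 2 ∧
    ∀ b, 29 * a ^ 7 ≤ b ^ 4 → (a - 1) * (2 * m + 1) ≤ b ∧ Fin1 a m b := by
  have h := chk_all ⟨a - 2, by omega⟩
  simp only at h
  rw [show a - 2 + 2 = a by omega] at h
  set m := (tab.getD (a - 2) (0, 0)).1
  set b0 := (tab.getD (a - 2) (0, 0)).2
  simp only [chk, Bool.and_eq_true, decide_eq_true_eq] at h
  obtain ⟨⟨⟨⟨⟨⟨h1, h2⟩, h3⟩, h4⟩, h5⟩, h6⟩, h7⟩ := h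
  refine ⟨m, h1, h2, fun b hb => ?_⟩
  have hb0 : b0 ≤ b := by
    have h8 : (b0 - 1) ^ 4 < b ^ 4 := lt_of_lt_of_le h4 hb
    have h9 := lt_of_pow_lt_pow_left₀ 4 (Nat.zero_le b) h8
    omega
  refine ⟨h5.trans hb0, ?_⟩
  obtain ⟨k, rfl⟩ := Nat.exists_eq_add_of_le hb0
  have h10 : 3 ≤ (a - 1) * (2 * m + 1) := by
    obtain ⟨n, rfl⟩ : ∃ n, a = n + 1 := ⟨a - 1, by omega⟩
    rw [Nat.add_sub_cancel]
    nlinarith
  rw [Fin1]
  set D := (a - 1) * (2 * m + 1) * ((a - 1) * (2 * m + 1) - 1) *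
    ((a - 1) * (2 * m + 1) - 2) with hD
  set Y := (a - 1) * (2 * m ^ 2 - a) with hY
  obtain ⟨c, hc⟩ : ∃ c, b0 = c + 2 := ⟨b0 - 2, by omega⟩
  rw [hc] at h6 h7 ⊢
  have e1 : 3 * (c + 2) ^ 2 - 6 * (c + 2) + 2 = 3 * c ^ 2 + 6 * c + 2 := by
    have : 3 * (c + 2) ^ 2 = 3 * c ^ 2 + 6 * c + 6 * (c + 2) := by ring
    omega
  have e2 : c + 2 - 1 = c + 1 := by omega
  have e3 : c + 2 - 2 = c := by omega
  have e4 : c + 2 + k - 1 = c + 1 + k := by omega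
  have e5 : c + 2 + k - 2 = c + k := by omega
  rw [e1] at h6
  rw [e2, e3] at h7
  rw [e4, e5]
  have e6 : (c + 2 + k) * (c + 1 + k) * (c + k) =
      (c + 2) * (c + 1) * c + k * (3 * c ^ 2 + 6 * c + 2) + k ^ 2 * (3 * c + 3) + k ^ 3 := by ring
  rw [e6]
  have e7 : k * (2 * a * D) ≤ k * (3 * (Y * (3 * c ^ 2 + 6 * c + 2))) := Nat.mul_le_mul_left _ h6
  calc 2 * (a * (c + 2 + k)) * D = 2 * (a * (c + 2)) * D + k * (2 * a * D) := by ring
    _ < 3 * (Y * ((c + 2) * (c + 1) * c)) + 3 * (a * (a + 1)) * D +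
        k * (3 * (Y * (3 * c ^ 2 + 6 * c + 2))) := by omega
    _ ≤ 3 * (Y * ((c + 2) * (c + 1) * c)) + 3 * (a * (a + 1)) * D +
        k * (3 * (Y * (3 * c ^ 2 + 6 * c + 2))) + 3 * (Y * (k ^ 2 * (3 * c + 3) + k ^ 3)) :=
        Nat.le_add_right _ _
    _ = _ := by ring

/-- The choice of the parameter. -/
theorem exists_m (a : ℕ) : ∃ m : ℕ, 3 * a < 2 * (m + 1) ^ 2 ∧ 2 * m ^ 2 ≤ 3 * a := by
  have h1 := Nat.sqrt_le (3 * a / 2)
  have h2 := Nat.lt_succ_sqrt (3 * a / 2)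
  rw [Nat.succ_eq_add_one] at h2
  refine ⟨Nat.sqrt (3 * a / 2), ?_, ?_⟩
  · rw [pow_two]; omega
  · rw [pow_two]; omega

theorem fin_large {n m g b : ℕ} (hn : 1 ≤ n) (hm1 : 1 ≤ m) (hg' : 2 * m ^ 2 - (n + 1) = g)
    (hxb : n * (2 * m + 1) ≤ b)
    (c5 : 4 * n ^ 4 * (2 * m + 1) ^ 6 ≤ 261 * ((n + 1) ^ 5 * g ^ 2))
    (hb : 29 * (n + 1) ^ 7 ≤ b ^ 4) : Fin1 (n + 1) m b := by
  rw [Fin1, Nat.add_sub_cancel, hg']
  set x := n * (2 * m + 1) with hx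
  have hx3 : 3 ≤ x := by nlinarith
  have c6 : 2 * ((n + 1) * x ^ 3) ≤ 3 * (n * g * b ^ 2) := by
    refine (Nat.pow_le_pow_iff_left (n := 2) (by norm_num)).1 ?_
    calc (2 * ((n + 1) * x ^ 3)) ^ 2 = (n + 1) ^ 2 * n ^ 2 * (4 * n ^ 4 * (2 * m + 1) ^ 6) := by
          rw [hx]; ring
      _ ≤ (n + 1) ^ 2 * n ^ 2 * (261 * ((n + 1) ^ 5 * g ^ 2)) := Nat.mul_le_mul_left _ c5
      _ = 9 * n ^ 2 * g ^ 2 * (29 * (n + 1) ^ 7) := by ring
      _ ≤ 9 * n ^ 2 * g ^ 2 * b ^ 4 := Nat.mul_le_mul_left _ hb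
      _ = (3 * (n * g * b ^ 2)) ^ 2 := by ring
  obtain ⟨c0, hc0⟩ : ∃ c0, x = c0 + 3 := ⟨x - 3, by omega⟩
  obtain ⟨j, hj⟩ := Nat.exists_eq_add_of_le hxb
  have c7 : x * (x - 1) * (x - 2) * b ^ 3 ≤ x ^ 3 * (b * (b - 1) * (b - 2)) := by
    rw [hj, hc0]
    have e2 : c0 + 3 - 1 = c0 + 2 := by omega
    have e3 : c0 + 3 - 2 = c0 + 1 := by omega
    have e4 : c0 + 3 + j - 1 = c0 + 2 + j := by omega
    have e5 : c0 + 3 + j - 2 = c0 + 1 + j := by omega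
    rw [e2, e3, e4, e5]
    have e6 : (c0 + 2) * (c0 + 3 + j) ≤ (c0 + 3) * (c0 + 2 + j) := by nlinarith
    have e7 : (c0 + 1) * (c0 + 3 + j) ≤ (c0 + 3) * (c0 + 1 + j) := by nlinarith
    calc (c0 + 3) * (c0 + 2) * (c0 + 1) * (c0 + 3 + j) ^ 3 =
          (c0 + 3) * (c0 + 3 + j) * (((c0 + 2) * (c0 + 3 + j)) * ((c0 + 1) * (c0 + 3 + j))) := by
          ring
      _ ≤ (c0 + 3) * (c0 + 3 + j) * (((c0 + 3) * (c0 + 2 + j)) * ((c0 + 3) * (c0 + 1 + j))) :=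
          Nat.mul_le_mul_left _ (Nat.mul_le_mul e6 e7)
      _ = (c0 + 3) ^ 3 * ((c0 + 3 + j) * (c0 + 2 + j) * (c0 + 1 + j)) := by ring
  set D := x * (x - 1) * (x - 2) with hD
  have hD0 : 0 < D := by
    rw [hD]
    exact Nat.mul_pos (Nat.mul_pos (by omega) (by omega)) (by omega)
  have c8 : 2 * ((n + 1) * b) * D ≤ 3 * (n * g * (b * (b - 1) * (b - 2))) := by
    have e : x ^ 3 * (2 * ((n + 1) * b) * D) ≤
        x ^ 3 * (3 * (n * g * (b * (b - 1) * (b - 2)))) := by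
      calc x ^ 3 * (2 * ((n + 1) * b) * D) = 2 * ((n + 1) * x ^ 3) * (b * D) := by ring
        _ ≤ 3 * (n * g * b ^ 2) * (b * D) := Nat.mul_le_mul_right _ c6
        _ = 3 * (n * g) * (D * b ^ 3) := by ring
        _ ≤ 3 * (n * g) * (x ^ 3 * (b * (b - 1) * (b - 2))) := Nat.mul_le_mul_left _ c7
        _ = _ := by ring
    exact Nat.le_of_mul_le_mul_left e (by positivity)
  have c9 : 0 < 3 * ((n + 1) * (n + 1 + 1)) * D := by positivity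
  omega

theorem key_large {a : ℕ} (ha : 171 ≤ a) : ∃ m, 1 ≤ m ∧ a < 2 * m ^ 2 ∧
    ∀ b, 29 * a ^ 7 ≤ b ^ 4 → (a - 1) * (2 * m + 1) ≤ b ∧ Fin1 a m b := by
  obtain ⟨l, h1, h2⟩ := exists_m a
  have hl : 16 ≤ l := by
    by_contra hc
    have h3 : l + 1 ≤ 16 := by omega
    have h4 : (l + 1) ^ 2 ≤ 16 ^ 2 := Nat.pow_le_pow_left h3 2
    omega
  obtain ⟨k, rfl⟩ := Nat.exists_eq_add_of_le hl
  refine ⟨16 + k + 1, by omega, by omega, fun b hb => ?_⟩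
  set m := 16 + k + 1 with hm
  obtain ⟨n, rfl⟩ : ∃ n, a = n + 1 := ⟨a - 1, by omega⟩
  rw [Nat.add_sub_cancel]
  obtain ⟨g, hg⟩ := Nat.exists_eq_add_of_le (show n + 1 ≤ 2 * m ^ 2 by omega)
  have hg' : 2 * m ^ 2 - (n + 1) = g := by omega
  obtain ⟨δ, hδ⟩ := Nat.exists_eq_add_of_le h2
  obtain ⟨ε, hε⟩ := Nat.exists_eq_add_of_le h1.le
  set α := 2 * (16 + k) ^ 2 with hα
  -- the main polynomial inequality
  have hp : 3 * g = 2 * α + 2 * δ + 3 * ε := by omega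
  have c1 : α * (2 * α + 3 * δ + 3 * ε) ^ 2 ≤ (α + δ) * (2 * α + 2 * δ + 3 * ε) ^ 2 := by
    have e : (α + δ) * (2 * α + 2 * δ + 3 * ε) ^ 2 = α * (2 * α + 3 * δ + 3 * ε) ^ 2 +
        δ * (3 * (α * δ) + 6 * (α * ε) + (2 * δ + 3 * ε) ^ 2) := by ring
    rw [e]
    exact Nat.le_add_right _ _
  have c2 : 2 * α + 3 * δ + 3 * ε = 2 * (2 * k ^ 2 + 70 * k + 611) := by
    have e1 : 2 * m ^ 2 = 2 * k ^ 2 + 68 * k + 578 := by rw [hm]; ring
    have e2 : α = 2 * k ^ 2 + 64 * k + 512 := by rw [hα]; ring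
    omega
  have c3 : 108 * (2 * m + 1) ^ 6 ≤ 261 * (α * (2 * α + 3 * δ + 3 * ε) ^ 2) := by
    have e : 261 * (α * (2 * (2 * k ^ 2 + 70 * k + 611)) ^ 2) = 108 * (2 * m + 1) ^ 6 +
        (1440 * k ^ 6 + 126144 * k ^ 5 + 4428864 * k ^ 4 + 78092064 * k ^ 3 +
          696458520 * k ^ 2 + 2598991056 * k + 1017839988) := by
      rw [hm, hα]; ring
    rw [c2, e]
    exact Nat.le_add_right _ _
  have c4 : 4 * (2 * m + 1) ^ 6 ≤ 261 * ((n + 1) * g ^ 2) := by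
    have e : (α + δ) * (2 * α + 2 * δ + 3 * ε) ^ 2 = 27 * ((n + 1) * g ^ 2) := by
      rw [← hδ, ← hp]; ring
    rw [e] at c1
    omega
  have c5 : 4 * n ^ 4 * (2 * m + 1) ^ 6 ≤ 261 * ((n + 1) ^ 5 * g ^ 2) := by
    calc 4 * n ^ 4 * (2 * m + 1) ^ 6 = n ^ 4 * (4 * (2 * m + 1) ^ 6) := by ring
      _ ≤ (n + 1) ^ 4 * (261 * ((n + 1) * g ^ 2)) :=
          Nat.mul_le_mul (Nat.pow_le_pow_left (Nat.le_succ n) 4) c4
      _ = _ := by ring
  have hx4 : (n * (2 * m + 1)) ^ 4 ≤ 29 * (n + 1) ^ 7 := by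
    have h4 : (2 * m + 1) ^ 2 ≤ 9 * (n + 1) := by
      have e2 : α = 2 * k ^ 2 + 64 * k + 512 := by rw [hα]; ring
      have e3 : (2 * m + 1) ^ 2 = 4 * k ^ 2 + 140 * k + 1225 := by rw [hm]; ring
      rw [e3]
      omega
    calc (n * (2 * m + 1)) ^ 4 = n ^ 4 * ((2 * m + 1) ^ 2) ^ 2 := by ring
      _ ≤ (n + 1) ^ 4 * (9 * (n + 1)) ^ 2 :=
          Nat.mul_le_mul (Nat.pow_le_pow_left (Nat.le_succ n) 4) (Nat.pow_le_pow_left h4 2)
      _ = 81 * (n + 1) ^ 6 := by ring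
      _ ≤ 29 * (n + 1) * (n + 1) ^ 6 := Nat.mul_le_mul_right _ (by omega)
      _ = 29 * (n + 1) ^ 7 := by ring
  have hxb : n * (2 * m + 1) ≤ b :=
    (Nat.pow_le_pow_iff_left (by norm_num)).1 (hx4.trans hb)
  refine ⟨hxb, ?_⟩
  refine fin_large (by omega) (by omega) hg' hxb ?_ hb
  exact c5

theorem key {a : ℕ} (ha : 2 ≤ a) : ∃ m, 1 ≤ m ∧ a < 2 * m ^ 2 ∧
    ∀ b, 29 * a ^ 7 ≤ b ^ 4 → (a - 1) * (2 * m + 1) ≤ b ∧ Fin1 a m b := by
  rcases Nat.lt_or_ge a 171 with h | h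
  · exact key_small ha h
  · exact key_large h

/-- **Row M5**, with the constant 29. -/
theorem rec74' {a : ℕ} (ha : 2 ≤ a) {K : ℕ → ℕ → Prop} (H : Inp a K) {b t : ℕ}
    (hb : 29 * a ^ 7 ≤ b ^ 4) (ht : 3 * t ≤ a * b) : K b t := by
  obtain ⟨m, h1, h2, h3⟩ := key ha
  obtain ⟨h4, h5⟩ := h3 b hb
  exact tail' ha H h1 h2 h4 h5 ht

/-- **Row M5**, literal statement of helper151. -/
theorem rec74 (a : ℕ) (ha : 2 ≤ a) (K : ℕ → ℕ → Prop)
    (base : ∀ b t s, 1 ≤ s → t + (a - 1) * (s * (s + 1) - 1) ≤ s * b → K b t)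
    (step : ∀ b t s, 1 ≤ s → 2 * a ≤ b + 1 → (∀ t', t' + s ≤ t → K b t') →
      2 * ((s - 1) * (b + 1)) + 3 * (a * (a + 1)) < 6 * t → K (b + 1) t) :
    ∀ b t, 32 * a ^ 7 ≤ b ^ 4 → 3 * t ≤ a * b → K b t := by
  intro b t hb ht
  refine rec74' ha ⟨base, step⟩ (le_trans ?_ hb) ht
  exact Nat.mul_le_mul_right _ (by norm_num)

end Vale.Agent.P181.R2.H424.Rec74

namespace Vale.Agent.P181.TM

/-- Row M5 of helper151. -/
theorem rec74 (a : ℕ) (ha : 2 ≤ a) (K : ℕ → ℕ → Prop)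
    (base : ∀ b t s, 1 ≤ s → t + (a - 1) * (s * (s + 1) - 1) ≤ s * b → K b t)
    (step : ∀ b t s, 1 ≤ s → 2 * a ≤ b + 1 → (∀ t', t' + s ≤ t → K b t') →
      2 * ((s - 1) * (b + 1)) + 3 * (a * (a + 1)) < 6 * t → K (b + 1) t) :
    ∀ b t, 32 * a ^ 7 ≤ b ^ 4 → 3 * t ≤ a * b → K b t :=
  R2.H424.Rec74.rec74 a ha K base step

/-- The same with the constant 29. -/
theorem rec74_29 (a : ℕ) (ha : 2 ≤ a) (K : ℕ → ℕ → Prop)
    (base : ∀ b t s, 1 ≤ s → t + (a - 1) * (s * (s + 1) - 1) ≤ s * b → K b t)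
    (step : ∀ b t s, 1 ≤ s → 2 * a ≤ b + 1 → (∀ t', t' + s ≤ t → K b t') →
      2 * ((s - 1) * (b + 1)) + 3 * (a * (a + 1)) < 6 * t → K (b + 1) t) :
    ∀ b t, 29 * a ^ 7 ≤ b ^ 4 → 3 * t ≤ a * b → K b t :=
  fun _ _ hb ht => R2.H424.Rec74.rec74' ha ⟨base, step⟩ hb ht

end Vale.Agent.P181.TM
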