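import Mathlib

/-!
P181, three rows: the pure recursion with the W step (quadratic growth) and the J step
(cubic growth), row M5' of helper556.
-/

namespace Vale.Agent.P181.R2.H424.RecW

/-- The inputs of the recursion; `A` is the largest number of slots. -/
structure Inp (A : ℕ) (K : ℕ → ℕ → ℕ → Prop) : Prop where
  zero : ∀ b t, K 0 b t
  tree : ∀ a b t, a ≤ A → t + (A - 1) ≤ b → K a b t
  stepW : ∀ a b t s e, 1 ≤ s → 1 ≤ b → a + 1 ≤ A → a ≤ e + 2 →
    (b + 1 - 2) * (s - 1) + e + 4 < 2 * t → (∀ t', t' ≤ t → K a (b + 1) t') →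
    (∀ t', t' + s ≤ t → K (a + 1) b t') → K (a + 1) (b + 1) t
  stepJ : ∀ a b t s, 1 ≤ s → 1 ≤ a → a ≤ A → 2 * a ≤ b + 1 →
    a * (a - 1) + 2 * ((s - 1) * (a - 1)) < 2 * t →
    2 * ((s - 1) * (b + 1 + 2 * a)) + a * (a - 1) < 6 * t →
    (∀ a', a' < a → ∀ t', t' ≤ t → K a' (b + 1) t') →
    (∀ t', t' + s ≤ t → K a b t') → K a (b + 1) t
  dom : ∀ a b t, a * b < 3 * t → K a b t

/-- Stage one: slope `s`. -/
theorem stageW {A : ℕ} (hA : 3 ≤ A) {K : ℕ → ℕ → ℕ → Prop} (H : Inp A K) :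
    ∀ s : ℕ, 1 ≤ s → ∀ b a t : ℕ, a ≤ A → 4 * t + (3 * (s * (s + 1)) - 2) * A ≤ 4 * (s * b) →
      K a b t := by
  intro s hs
  induction s, hs using Nat.le_induction with
  | base =>
    intro b a t ha h
    refine H.tree a b t ha ?_
    omega
  | succ s hs ih =>
    have hss : 1 ≤ s * (s + 1) := by nlinarith
    obtain ⟨w, hw⟩ : ∃ w, 3 * (s * (s + 1)) = w + 2 := ⟨3 * (s * (s + 1)) - 2, by omega⟩
    have hw1 : 3 * (s * (s + 1)) - 2 = w := by omega
    have hw2 : 3 * ((s + 1) * (s + 1 + 1)) - 2 = w + (6 * s + 6) := by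
      have : 3 * ((s + 1) * (s + 1 + 1)) = 3 * (s * (s + 1)) + (6 * s + 6) := by ring
      omega
    rw [hw1] at ih
    rw [hw2]
    intro b
    induction b with
    | zero =>
      intro a t ha h
      have h1 : 0 < (w + (6 * s + 6)) * A := by positivity
      omega
    | succ b ihb =>
      intro a
      induction a with
      | zero =>
        intro t _ _
        exact H.zero _ _
      | succ a iha =>
        intro t ha h
        have e0 : (w + (6 * s + 6)) * A = w * A + 6 * (s + 1) * A := by ring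
        have e1 : 4 * ((s + 1) * (b + 1)) = 4 * (s * (b + 1)) + 4 * (b + 1) := by ring
        by_cases h1 : 2 * (b + 1) < 3 * ((s + 1) * A)
        · refine ih (b + 1) (a + 1) t ha ?_
          have e2 : 6 * (s + 1) * A = 2 * (3 * ((s + 1) * A)) := by ring
          omega
        · by_cases h2 : (b + 1 - 2) * (s + 1 - 1) + (A - 3) + 4 < 2 * t
          · refine H.stepW a b t (s + 1) (A - 3) (by omega) (by nlinarith) ha (by omega) h2 ?_ ?_
            · intro t' ht'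
              exact iha t' (by omega) (by omega)
            · intro t' ht'
              refine ihb (a + 1) t' ha ?_
              have e3 : 4 * ((s + 1) * (b + 1)) = 4 * ((s + 1) * b) + 4 * (s + 1) := by ring
              omega
          · refine ih (b + 1) (a + 1) t ha ?_
            rw [Nat.add_sub_cancel] at h2
            obtain ⟨c, rfl⟩ : ∃ c, b = c + 1 := ⟨b - 1, by
              have : 3 * ((s + 1) * A) ≥ 3 * (2 * 3) := by nlinarith
              omega⟩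
            have e4 : c + 1 + 1 - 2 = c := by omega
            rw [e4] at h2
            have e5 : 4 * (s * (c + 1 + 1)) = 4 * (c * s) + 8 * s := by ring
            rw [e5]
            -- 2 t ≤ c s + A + 1, to show 4 t + w A ≤ 4 c s + 8 s
            have h3 : 2 * t ≤ c * s + A + 1 := by omega
            have h4 : 3 * ((s + 1) * A) * s ≤ 2 * (c + 1 + 1) * s := Nat.mul_le_mul_right _ (by omega)
            have e6 : 3 * ((s + 1) * A) * s = (w + 2) * A := by rw [← hw]; ring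
            have e7 : 2 * (c + 1 + 1) * s = 2 * (c * s) + 4 * s := by ring
            have e8 : (w + 2) * A = w * A + 2 * A := by ring
            omega

/-- The invariant at level `b`. -/
def Good (A m b1 T1 : ℕ) (K : ℕ → ℕ → ℕ → Prop) (b : ℕ) : Prop :=
  ∃ T y : ℕ, T1 ≤ T ∧ y + A * (A - 1) = 6 * (T + 1) ∧ (∀ a, a ≤ A → ∀ t, t ≤ T → K a b t) ∧
    (6 * (T1 + 1) - A * (A - 1)) * ((b + 2 * A) * (b + 2 * A - 1) * (b + 2 * A - 2)) ≤
      y * ((b1 + 2 * A) * (b1 + 2 * A - 1) * (b1 + 2 * A - 2))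

theorem good_step {A m b1 T1 : ℕ} (hA : 3 ≤ A) {K : ℕ → ℕ → ℕ → Prop} (H : Inp A K)
    (hm : 1 ≤ m) (hT1 : 4 * T1 + (3 * (m * (m + 1)) - 2) * A ≤ 4 * (m * b1))
    (hTA : A * (A - 1) ≤ 2 * T1) (hb1 : 2 * A ≤ b1)
    (h0 : 2 * (A * (A - 1)) * (b1 + 2 * A - 2) <
      (6 * (T1 + 1) - A * (A - 1)) * (b1 + 4 - A)) {b : ℕ} (hb : b1 ≤ b)
    (h : Good A m b1 T1 K b) : Good A m b1 T1 K (b + 1) := by
  obtain ⟨T, y, hT, hy, hK, hI⟩ := h
  set P := A * (A - 1) with hP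
  set Y := 6 * (T1 + 1) - P with hY
  have hYy : Y ≤ y := by omega
  have hY0 : 0 < Y := by omega
  set B := b + 2 * A - 2 with hB
  have hB0 : 0 < B := by omega
  obtain ⟨s, hs1, hs2, hs3⟩ : ∃ s : ℕ, 1 ≤ s ∧ y ≤ s * (2 * B) ∧ (s - 1) * (2 * B) < y := by
    refine ⟨(y - 1) / (2 * B) + 1, Nat.le_add_left _ _, ?_, ?_⟩
    · have h1 := Nat.lt_div_mul_add (a := y - 1) (b := 2 * B) (by omega)
      have h2 : ((y - 1) / (2 * B) + 1) * (2 * B) = (y - 1) / (2 * B) * (2 * B) + 2 * B := by ring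
      omega
    · rw [Nat.add_sub_cancel]
      have h1 := Nat.div_mul_le_self (y - 1) (2 * B)
      omega
  -- the slope condition of `h0` at level `b`
  have h0b : 2 * P * B < Y * (b + 4 - A) := by
    obtain ⟨j, hj⟩ := Nat.exists_eq_add_of_le hb
    have e1 : B = (b1 + 2 * A - 2) + j := by omega
    have e2 : b + 4 - A = (b1 + 4 - A) + j := by omega
    rw [e1, e2]
    have h2 : 2 * P ≤ Y := by
      by_contra hc
      have hc' : Y < 2 * P := by omega
      have h3 : Y * (b1 + 4 - A) ≤ 2 * P * (b1 + 2 * A - 2) :=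
        Nat.mul_le_mul hc'.le (by omega)
      omega
    have h4 : 2 * P * j ≤ Y * j := Nat.mul_le_mul_right _ h2
    rw [Nat.mul_add, Nat.mul_add]
    omega
  have key : ∀ v, v ≤ s - 1 → 2 * P + 6 * (v * (A - 2)) < y := by
    intro v hv
    have h1 : v * (2 * B) < y := lt_of_le_of_lt (Nat.mul_le_mul_right _ hv) hs3
    by_contra hc
    have h2 : y ≤ 2 * P + 6 * (v * (A - 2)) := by omega
    have h3 : y * B ≤ (2 * P + 6 * (v * (A - 2))) * B := Nat.mul_le_mul_right _ h2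
    have e3 : (2 * P + 6 * (v * (A - 2))) * B = 2 * P * B + 3 * (A - 2) * (v * (2 * B)) := by ring
    have h4 : 3 * (A - 2) * (v * (2 * B)) ≤ 3 * (A - 2) * y := Nat.mul_le_mul_left _ h1.le
    have h5 : Y * (b + 4 - A) ≤ y * (b + 4 - A) := Nat.mul_le_mul_right _ hYy
    have e4 : y * B = y * (b + 4 - A) + 3 * (A - 2) * y := by
      have : B = (b + 4 - A) + 3 * (A - 2) := by omega
      rw [this]; ring
    omega
  have hnew : ∀ a, a ≤ A → ∀ t, t ≤ T + s → K a (b + 1) t := by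
    intro a
    induction a using Nat.strong_induction_on with
    | _ a iha =>
      intro ha t ht
      rcases Nat.eq_zero_or_pos a with h1 | ha1
      · rw [h1]; exact H.zero _ _
      rcases Nat.lt_or_ge T1 t with h2 | h2
      · -- a J step
        have main : ∀ v, v ≤ s - 1 → T + v + 1 ≤ t ∨ v = 0 → t ≤ T + v + 1 → K a (b + 1) t := by
          intro v hv hv2 hv3
          have hPa : a * (a - 1) ≤ P := Nat.mul_le_mul ha (by omega)
          have k1 := key v hv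
          have k2 : v * (2 * B) < y := lt_of_le_of_lt (Nat.mul_le_mul_right _ hv) hs3
          refine H.stepJ a b t (v + 1) (by omega) ha1 ha (by omega) ?_ ?_ ?_ ?_
          · rw [Nat.add_sub_cancel]
            have h3 : v * (a - 1) ≤ v * (A - 1) := Nat.mul_le_mul_left _ (by omega)
            rcases hv2 with hv2 | hv2
            · have e5 : v * (A - 1) = v * (A - 2) + v := by
                have : A - 1 = (A - 2) + 1 := by omega
                rw [this]; ring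
              omega
            · rw [hv2]
              rw [Nat.zero_mul]
              omega
          · rw [Nat.add_sub_cancel]
            have h3 : v * (b + 1 + 2 * a) ≤ v * (b + 1 + 2 * A) := Nat.mul_le_mul_left _ (by omega)
            rcases hv2 with hv2 | hv2
            · have e5 : 2 * (v * (b + 1 + 2 * A)) = v * (2 * B) + 6 * v := by
                have : b + 1 + 2 * A = B + 3 := by omega
                rw [this]; ring
              omega
            · rw [hv2]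
              rw [Nat.zero_mul]
              omega
          · intro a' ha' t' ht'
            exact iha a' ha' (by omega) t' (by omega)
          · intro t' ht'
            exact hK a ha t' (by omega)
        rcases Nat.lt_or_ge T t with h3 | h3
        · exact main (t - T - 1) (by omega) (Or.inl (by omega)) (by omega)
        · exact main 0 (by omega) (Or.inr rfl) (by omega)
      · refine stageW hA H m hm (b + 1) a t ha ?_
        have h3 : 4 * (m * b1) ≤ 4 * (m * (b + 1)) := by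
          have : m * b1 ≤ m * (b + 1) := Nat.mul_le_mul_left _ (by omega)
          omega
        omega
  refine ⟨T + s, y + 6 * s, by omega, by omega, hnew, ?_⟩
  set D := (b1 + 2 * A) * (b1 + 2 * A - 1) * (b1 + 2 * A - 2) with hD
  have e1 : b + 1 + 2 * A = B + 3 := by omega
  have e2 : b + 1 + 2 * A - 1 = B + 2 := by omega
  have e3 : b + 1 + 2 * A - 2 = B + 1 := by omega
  have e4 : b + 2 * A = B + 2 := by omega
  have e5 : b + 2 * A - 1 = B + 1 := by omega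
  rw [e4, show B + 2 - 1 = B + 1 by omega] at hI
  rw [e1, show B + 3 - 1 = B + 2 by omega, show B + 3 - 2 = B + 1 by omega]
  have h1 : y * (B + 3) ≤ (y + 6 * s) * B := by nlinarith
  have h2 : Y * ((B + 3) * (B + 2) * (B + 1)) * B ≤ (y + 6 * s) * D * B := by
    calc Y * ((B + 3) * (B + 2) * (B + 1)) * B = Y * ((B + 2) * (B + 1) * B) * (B + 3) := by ring
      _ ≤ y * D * (B + 3) := Nat.mul_le_mul_right _ hI
      _ = y * (B + 3) * D := by ring
      _ ≤ (y + 6 * s) * B * D := Nat.mul_le_mul_right _ h1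
      _ = (y + 6 * s) * D * B := by ring
  exact Nat.le_of_mul_le_mul_right h2 hB0

theorem good_start {A m b1 T1 : ℕ} (hA : 3 ≤ A) {K : ℕ → ℕ → ℕ → Prop} (H : Inp A K)
    (hm : 1 ≤ m) (hT1 : 4 * T1 + (3 * (m * (m + 1)) - 2) * A ≤ 4 * (m * b1))
    (hTA : A * (A - 1) ≤ 2 * T1) : Good A m b1 T1 K b1 := by
  refine ⟨T1, 6 * (T1 + 1) - A * (A - 1), le_refl _, by omega, ?_, le_refl _⟩
  intro a ha t ht
  exact stageW hA H m hm b1 a t ha (by omega)

/-- All weights from one inequality. -/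
theorem tail {A m b1 T1 : ℕ} (hA : 3 ≤ A) {K : ℕ → ℕ → ℕ → Prop} (H : Inp A K)
    (hm : 1 ≤ m) (hT1 : 4 * T1 + (3 * (m * (m + 1)) - 2) * A ≤ 4 * (m * b1))
    (hTA : A * (A - 1) ≤ 2 * T1) (hb1 : 2 * A ≤ b1)
    (h0 : 2 * (A * (A - 1)) * (b1 + 2 * A - 2) <
      (6 * (T1 + 1) - A * (A - 1)) * (b1 + 4 - A)) {b : ℕ} (hb : b1 ≤ b) {t : ℕ}
    (ht : 6 * t * ((b1 + 2 * A) * (b1 + 2 * A - 1) * (b1 + 2 * A - 2)) <
      (6 * (T1 + 1) - A * (A - 1)) * ((b + 2 * A) * (b + 2 * A - 1) * (b + 2 * A - 2)) +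
        A * (A - 1) * ((b1 + 2 * A) * (b1 + 2 * A - 1) * (b1 + 2 * A - 2))) : K A b t := by
  have hg : Good A m b1 T1 K b := by
    clear ht
    induction b, hb using Nat.le_induction with
    | base => exact good_start hA H hm hT1 hTA
    | succ b hb ih => exact good_step hA H hm hT1 hTA hb1 h0 hb ih
  obtain ⟨T, y, hT, hy, hK, hI⟩ := hg
  refine hK A (le_refl _) t ?_
  by_contra hc
  set D := (b1 + 2 * A) * (b1 + 2 * A - 1) * (b1 + 2 * A - 2) with hD
  have h1 : 6 * (T + 1) * D ≤ 6 * t * D := Nat.mul_le_mul_right _ (by omega)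
  rw [← hy, Nat.add_mul] at h1
  omega

/-- The numerical inequality. -/
theorem num {A m g : ℕ} (hA : 131 ≤ A) (h1 : m ^ 2 ≤ A) (h2 : A < (m + 1) ^ 2)
    (hg : g + 2 * A = 9 * m ^ 2 + 9 * m + 8) : (3 * m + 7) ^ 6 ≤ 36 * (A * g ^ 2) := by
  have hm : 11 ≤ m := by
    by_contra hc
    have h3 : m + 1 ≤ 11 := by omega
    have h4 : (m + 1) ^ 2 ≤ 11 ^ 2 := Nat.pow_le_pow_left h3 2
    omega
  rcases Nat.eq_or_lt_of_le hm with h | h
  · subst h
    have h3 : A < 144 := by omega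
    have h4 : g = 1196 - 2 * A := by omega
    subst h4
    clear hg h1 h2
    interval_cases A <;> norm_num
  · obtain ⟨d, hd⟩ := Nat.exists_eq_add_of_le h1
    have h3 : d ≤ 2 * m := by nlinarith
    set G := 7 * m ^ 2 + 9 * m + 8 with hG
    have h4 : G = g + 2 * d := by omega
    have h5 : 7 * m ^ 2 ≤ g := by omega
    have h6 : m ^ 2 * G ^ 2 ≤ A * g ^ 2 := by
      have e1 : A * g ^ 2 = m ^ 2 * g ^ 2 + d * (g * g) := by rw [hd]; ring
      have e2 : m ^ 2 * G ^ 2 = m ^ 2 * g ^ 2 + d * (4 * m ^ 2 * (g + d)) := by rw [h4]; ring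
      rw [e1, e2]
      refine Nat.add_le_add_left (Nat.mul_le_mul_left _ ?_) _
      have h7 : 4 * (g + d) ≤ 7 * g := by nlinarith
      calc 4 * m ^ 2 * (g + d) = m ^ 2 * (4 * (g + d)) := by ring
        _ ≤ m ^ 2 * (7 * g) := Nat.mul_le_mul_left _ h7
        _ = 7 * m ^ 2 * g := by ring
        _ ≤ g * g := Nat.mul_le_mul_right _ h5
    have h7 : (3 * m + 7) ^ 3 ≤ 6 * (m * G) := by
      obtain ⟨k, rfl⟩ := Nat.exists_eq_add_of_le (show 12 ≤ m by omega)
      have e : 6 * ((12 + k) * G) = (3 * (12 + k) + 7) ^ 3 +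
          (15 * k ^ 3 + 405 * k ^ 2 + 2847 * k + 1421) := by
        rw [hG]; ring
      rw [e]
      exact Nat.le_add_right _ _
    calc (3 * m + 7) ^ 6 = ((3 * m + 7) ^ 3) ^ 2 := by ring
      _ ≤ (6 * (m * G)) ^ 2 := Nat.pow_le_pow_left h7 2
      _ = 36 * (m ^ 2 * G ^ 2) := by ring
      _ ≤ 36 * (A * g ^ 2) := Nat.mul_le_mul_left _ h6

/-- The final inequality. -/
theorem fin1 {A m g b b1 Y t : ℕ} (hA : 131 ≤ A) (hm : 11 ≤ m) (hb1' : 2 * b1 ≤ 3 * (A * (m + 1)) + 1)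
    (hY : A * g + 3 ≤ 2 * Y) (hnum : (3 * m + 7) ^ 6 ≤ 36 * (A * g ^ 2))
    (hb : 9 * A ^ 7 ≤ b ^ 4) (ht : 3 * t ≤ A * b) (hb18 : 18 * A ≤ b1) :
    6 * t * ((b1 + 2 * A) * (b1 + 2 * A - 1) * (b1 + 2 * A - 2)) <
      Y * ((b + 2 * A) * (b + 2 * A - 1) * (b + 2 * A - 2)) +
        A * (A - 1) * ((b1 + 2 * A) * (b1 + 2 * A - 1) * (b1 + 2 * A - 2)) := by
  set D := (b1 + 2 * A) * (b1 + 2 * A - 1) * (b1 + 2 * A - 2) with hD
  have hD8 : 8 * D ≤ (A * (3 * m + 7)) ^ 3 := by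
    obtain ⟨x, hx⟩ : ∃ x, b1 + 2 * A = x + 1 + 1 := ⟨b1 + 2 * A - 2, by omega⟩
    have h1 : D ≤ (x + 1) ^ 3 := by
      rw [hD, hx, show x + 1 + 1 - 1 = x + 1 by omega, show x + 1 + 1 - 2 = x by omega]
      have e : (x + 1) ^ 3 = (x + 1 + 1) * (x + 1) * x + (x + 1) := by ring
      rw [e]
      exact Nat.le_add_right _ _
    have h2 : 2 * (x + 1) ≤ A * (3 * m + 7) := by
      have : A * (3 * m + 7) = 3 * (A * (m + 1)) + 4 * A := by ring
      omega
    calc 8 * D ≤ 8 * (x + 1) ^ 3 := Nat.mul_le_mul_left _ h1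
      _ = (2 * (x + 1)) ^ 3 := by ring
      _ ≤ _ := Nat.pow_le_pow_left h2 3
  have hf : b ^ 3 ≤ (b + 2 * A) * (b + 2 * A - 1) * (b + 2 * A - 2) := by
    calc b ^ 3 = b * b * b := by ring
      _ ≤ _ := Nat.mul_le_mul (Nat.mul_le_mul (by omega) (by omega)) (by omega)
  have hD0 : 0 < D := by
    rw [hD]
    exact Nat.mul_pos (Nat.mul_pos (by omega) (by omega)) (by omega)
  have c1 : A ^ 3 * (3 * m + 7) ^ 3 ≤ 2 * (g * b ^ 2) := by
    refine (Nat.pow_le_pow_iff_left (n := 2) (by norm_num)).1 ?_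
    calc (A ^ 3 * (3 * m + 7) ^ 3) ^ 2 = A ^ 6 * (3 * m + 7) ^ 6 := by ring
      _ ≤ A ^ 6 * (36 * (A * g ^ 2)) := Nat.mul_le_mul_left _ hnum
      _ = 4 * g ^ 2 * (9 * A ^ 7) := by ring
      _ ≤ 4 * g ^ 2 * b ^ 4 := Nat.mul_le_mul_left _ hb
      _ = (2 * (g * b ^ 2)) ^ 2 := by ring
  have c2 : 16 * (2 * (A * b) * D) ≤ 16 * (Y * b ^ 3) := by
    calc 16 * (2 * (A * b) * D) = 4 * (A * b) * (8 * D) := by ring
      _ ≤ 4 * (A * b) * (A * (3 * m + 7)) ^ 3 := Nat.mul_le_mul_left _ hD8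
      _ = 4 * (A * b) * (A ^ 3 * (3 * m + 7) ^ 3) := by ring
      _ ≤ 4 * (A * b) * (2 * (g * b ^ 2)) := Nat.mul_le_mul_left _ c1
      _ = 8 * (A * g) * b ^ 3 := by ring
      _ ≤ 8 * (2 * Y) * b ^ 3 := Nat.mul_le_mul_right _ (Nat.mul_le_mul_left _ (by omega))
      _ = 16 * (Y * b ^ 3) := by ring
  have c3 : Y * b ^ 3 ≤ Y * ((b + 2 * A) * (b + 2 * A - 1) * (b + 2 * A - 2)) :=
    Nat.mul_le_mul_left _ hf
  have c4 : 6 * t * D ≤ 2 * (A * b) * D := Nat.mul_le_mul_right _ (by omega)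
  have c5 : 0 < A * (A - 1) * D := Nat.mul_pos (Nat.mul_pos (by omega) (by omega)) hD0
  omega

/-- **Row M5'**: all weights for `9 * A ^ 7 ≤ b ^ 4`, `131 ≤ A`. -/
theorem full {A : ℕ} (hA : 131 ≤ A) {K : ℕ → ℕ → ℕ → Prop} (H : Inp A K) {b : ℕ}
    (hb : 9 * A ^ 7 ≤ b ^ 4) (t : ℕ) : K A b t := by
  rcases Nat.lt_or_ge (A * b) (3 * t) with ht | ht
  · exact H.dom A b t ht
  obtain ⟨m, hm1, hm2⟩ : ∃ m, m ^ 2 ≤ A ∧ A < (m + 1) ^ 2 :=
    ⟨Nat.sqrt A, Nat.sqrt_le' A, Nat.lt_succ_sqrt' A⟩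
  have hm : 11 ≤ m := by
    by_contra hc
    have h3 : m + 1 ≤ 11 := by omega
    have h4 : (m + 1) ^ 2 ≤ 11 ^ 2 := Nat.pow_le_pow_left h3 2
    omega
  have hAm : A ≤ m ^ 2 + 2 * m := by nlinarith
  obtain ⟨g, hg⟩ : ∃ g, g + 2 * A = 9 * m ^ 2 + 9 * m + 8 :=
    ⟨9 * m ^ 2 + 9 * m + 8 - 2 * A, by omega⟩
  have hg7 : 7 * m ^ 2 + 5 * m + 8 ≤ g := by omega
  have hnum := num hA hm1 hm2 hg
  obtain ⟨b1, hb1, hb1'⟩ : ∃ b1, 3 * (A * (m + 1)) ≤ 2 * b1 ∧ 2 * b1 ≤ 3 * (A * (m + 1)) + 1 :=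
    ⟨(3 * (A * (m + 1)) + 1) / 2, by omega, by omega⟩
  obtain ⟨T1, hT1, hT1'⟩ : ∃ T1, 4 * T1 ≤ (3 * (m * (m + 1)) + 2) * A ∧
      (3 * (m * (m + 1)) + 2) * A ≤ 4 * T1 + 3 :=
    ⟨(3 * (m * (m + 1)) + 2) * A / 4, by omega, by omega⟩
  -- the size of `T1`
  have hP : A * (A - 1) + A = A * A := by
    obtain ⟨n, rfl⟩ : ∃ n, A = n + 1 := ⟨A - 1, by omega⟩
    rw [Nat.add_sub_cancel]; ring
  have hTA : A * (A - 1) ≤ 2 * T1 := by
    have h1 : A * A ≤ (m ^ 2 + 2 * m) * A := Nat.mul_le_mul_right _ hAm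
    have e1 : (3 * (m * (m + 1)) + 2) * A = 2 * ((m ^ 2 + 2 * m) * A) + (m ^ 2 - m + 2) * A := by
      obtain ⟨k, rfl⟩ := Nat.exists_eq_add_of_le (show 1 ≤ m by omega)
      have : (1 + k) ^ 2 - (1 + k) + 2 = k ^ 2 + k + 2 := by
        have : (1 + k) ^ 2 = k ^ 2 + k + (1 + k) := by ring
        omega
      rw [this]; ring
    have h2 : 3 ≤ (m ^ 2 - m + 2) * A := by
      have : 2 * 131 ≤ (m ^ 2 - m + 2) * A := Nat.mul_le_mul (by omega) hA
      omega
    omega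
  have hY : A * g + 3 ≤ 2 * (6 * (T1 + 1) - A * (A - 1)) := by
    have e1 : 3 * ((3 * (m * (m + 1)) + 2) * A) + 2 * A = A * (g + 2 * A) := by
      rw [hg]; ring
    have e2 : A * (g + 2 * A) = A * g + 2 * (A * A) := by ring
    omega
  set Y := 6 * (T1 + 1) - A * (A - 1) with hYd
  have hb18 : 18 * A ≤ b1 := by
    have : A * 12 ≤ A * (m + 1) := Nat.mul_le_mul_left _ (by omega)
    omega
  -- the slope condition
  have h0 : 2 * (A * (A - 1)) * (b1 + 2 * A - 2) < Y * (b1 + 4 - A) := by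
    have h1 : 17 * (b1 + 2 * A - 2) ≤ 20 * (b1 + 4 - A) := by omega
    have h2 : 80 * (A - 1) ≤ 17 * g := by
      have : 80 * (A - 1) ≤ 80 * (m ^ 2 + 2 * m) := Nat.mul_le_mul_left _ (by omega)
      nlinarith
    have h3 : 17 * (4 * (A * (A - 1)) * (b1 + 2 * A - 2)) ≤ 17 * (A * g * (b1 + 4 - A)) := by
      calc 17 * (4 * (A * (A - 1)) * (b1 + 2 * A - 2)) =
            4 * (A * (A - 1)) * (17 * (b1 + 2 * A - 2)) := by ring
        _ ≤ 4 * (A * (A - 1)) * (20 * (b1 + 4 - A)) := Nat.mul_le_mul_left _ h1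
        _ = A * (80 * (A - 1)) * (b1 + 4 - A) := by ring
        _ ≤ A * (17 * g) * (b1 + 4 - A) :=
            Nat.mul_le_mul_right _ (Nat.mul_le_mul_left _ h2)
        _ = 17 * (A * g * (b1 + 4 - A)) := by ring
    have h4 : (A * g + 3) * (b1 + 4 - A) ≤ 2 * Y * (b1 + 4 - A) := Nat.mul_le_mul_right _ hY
    have h5 : 0 < b1 + 4 - A := by omega
    have e1 : (A * g + 3) * (b1 + 4 - A) = A * g * (b1 + 4 - A) + 3 * (b1 + 4 - A) := by ring
    have e2 : 4 * (A * (A - 1)) * (b1 + 2 * A - 2) =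
        2 * (2 * (A * (A - 1)) * (b1 + 2 * A - 2)) := by ring
    have e3 : 2 * Y * (b1 + 4 - A) = 2 * (Y * (b1 + 4 - A)) := by ring
    omega
  -- the first level
  have hb1b : b1 ≤ b := by
    refine (Nat.pow_le_pow_iff_left (n := 4) (by norm_num)).1 ?_
    have h1 : 2 * b1 ≤ 3 * (A * (m + 2)) := by
      have : 3 * (A * (m + 2)) = 3 * (A * (m + 1)) + 3 * A := by ring
      omega
    have h2 : (m + 2) ^ 2 ≤ 2 * A := by nlinarith
    have h3 : 16 * b1 ^ 4 ≤ 16 * b ^ 4 := by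
      calc 16 * b1 ^ 4 = (2 * b1) ^ 4 := by ring
        _ ≤ (3 * (A * (m + 2))) ^ 4 := Nat.pow_le_pow_left h1 4
        _ = 81 * A ^ 4 * ((m + 2) ^ 2) ^ 2 := by ring
        _ ≤ 81 * A ^ 4 * (2 * A) ^ 2 := Nat.mul_le_mul_left _ (Nat.pow_le_pow_left h2 2)
        _ = 324 * A ^ 6 := by ring
        _ ≤ 144 * A * A ^ 6 := Nat.mul_le_mul_right _ (by omega)
        _ = 16 * (9 * A ^ 7) := by ring
        _ ≤ 16 * b ^ 4 := Nat.mul_le_mul_left _ hb
    omega
  refine tail (by omega) H (show 1 ≤ m by omega) ?_ hTA (by omega) h0 hb1b ?_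
  · have h1 : m * (3 * (A * (m + 1))) ≤ m * (2 * b1) := Nat.mul_le_mul_left _ hb1
    have e1 : 2 * (m * (3 * (A * (m + 1)))) = 6 * (m * (m + 1)) * A := by ring
    have e2 : 2 * (m * (2 * b1)) = 4 * (m * b1) := by ring
    have e3 : (3 * (m * (m + 1)) - 2) * A + (3 * (m * (m + 1)) + 2) * A =
        6 * (m * (m + 1)) * A := by
      rw [← Nat.add_mul]
      congr 1
      have : 1 ≤ m * (m + 1) := by nlinarith
      omega
    omega
  · exact fin1 hA hm hb1' hY hnum hb ht hb18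

/-- Below `136` the hypothesis `9 * a ^ 7 ≤ b ^ 4` is contained in `(a ^ 2 + 2 a - 5) / 2 ≤ b`. -/
theorem small {a b : ℕ} (ha : a ≤ 135) (hb : 9 * a ^ 7 ≤ b ^ 4) :
    a ^ 2 + 2 * a - 5 ≤ 2 * b := by
  have h1 : ∀ i : Fin 136, (i.1 ^ 2 + 2 * i.1 - 5) ^ 4 ≤ 144 * i.1 ^ 7 := by decide +kernel
  have h2 := h1 ⟨a, by omega⟩
  simp only at h2
  refine (Nat.pow_le_pow_iff_left (n := 4) (by norm_num)).1 (h2.trans ?_)
  calc 144 * a ^ 7 = 16 * (9 * a ^ 7) := by ring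
    _ ≤ 16 * b ^ 4 := Nat.mul_le_mul_left _ hb
    _ = (2 * b) ^ 4 := by ring

end Vale.Agent.P181.R2.H424.RecW
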