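import Vale.Agent.P181.R2.H959.WDefs
import Vale.Agent.P181.R2.H959.FPow
import Vale.Agent.P181.R2.H207.FinalOf

set_option autoImplicit false

namespace Vale.Agent.P181.FR

open Vale.Agent.P181 Vale.Agent.P181.H280

lemma y4_div {n d : ℕ} (hd : 0 < d) (h : 4 * d ≤ n) : n ≤ 2 * d * (n / d - 1) ∧ 1 ≤ n / d := by
  have h1 : 4 ≤ n / d := (Nat.le_div_iff_mul_le hd).2 h
  have h2 : n < d * (n / d + 1) := Nat.lt_mul_div_succ n hd
  obtain ⟨k, hk⟩ : ∃ k, n / d = k + 4 := ⟨n / d - 4, by omega⟩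
  rw [hk] at h2 ⊢
  refine ⟨?_, by omega⟩
  have h3 : k + 4 - 1 = k + 3 := by omega
  rw [h3]
  have h4 : 2 * d * (k + 3) = d * (k + 4 + 1) + d * k + d := by ring
  have h5 : 0 ≤ d * k := Nat.zero_le _
  omega

lemma y4_prod {n1 d1 n2 d2 P : ℕ} (h1 : 0 < d1) (h2 : 0 < d2) (h3 : 4 * d1 ≤ n1)
    (h4 : 4 * d2 ≤ n2) (h : 4 * d1 * d2 * P ≤ n1 * n2) :
    P ≤ (n1 / d1 - 1) * (n2 / d2 - 1) := by
  have e1 := (y4_div h1 h3).1
  have e2 := (y4_div h2 h4).1
  have e3 : 4 * d1 * d2 * P ≤ 4 * d1 * d2 * ((n1 / d1 - 1) * (n2 / d2 - 1)) := by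
    calc 4 * d1 * d2 * P ≤ n1 * n2 := h
      _ ≤ (2 * d1 * (n1 / d1 - 1)) * (2 * d2 * (n2 / d2 - 1)) := Nat.mul_le_mul e1 e2
      _ = _ := by ring
  exact Nat.le_of_mul_le_mul_left e3 (by positivity)

/-- The integer core of Y4. -/
lemma y4_int {m i : ℕ} (hi : 3 ≤ i) (him : i ≤ m) {K N : ℕ} (hN : 0 < N)
    (core : ∀ (a b B c S : ℕ) (u g : ℕ → ℕ),
      i ∣ B → K ≤ B → K + c ≤ a → B + K ≤ b → (∀ j, u j ≤ g j) →
      ∑ j ∈ Finset.Icc 1 m, j * u j = c * B → ∑ j ∈ Finset.Icc 1 m, j * g j = a * b →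
      u i + K * a ≤ g i → S ≤ plethMult B c m (gw m u) → S ≤ plethMult b a m (gw m g))
    (rich : ∀ h1 h2 R s : ℕ, R * s ≤ h1 * h2 →
      s ^ R ≤ plethMult (2 * i * R) (2 * N * (h1 + 1) + 2 * N * (h2 + 1)) m
        ((2 * i * N * (h1 + 1) * R) • om m 2 + (4 * N * (h2 + 1) * R) • om m i))
    {a b q s R : ℕ} (g : ℕ → ℕ) (hs : ∑ j ∈ Finset.Icc 1 m, j * g j = a * b)
    (hR : R = 2 * m * q * a) (hR0 : 0 < R) (has : a ≤ s ^ q) (hab : b + 1 ≤ a ^ 2)
    (c1 : 32 * N ≤ a) (c2 : 4 * (2 * i * N * R) ≤ g 2) (c3 : 4 * (8 * N * R) ≤ g i)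
    (p1 : 4 * (8 * N) * (8 * N) * (R * s) ≤ a * a)
    (p2 : 4 * (8 * N) * (8 * N * R) * (R * s) ≤ a * g i)
    (p3 : 4 * (2 * i * N * R) * (8 * N) * (R * s) ≤ g 2 * a)
    (p4 : 4 * (2 * i * N * R) * (8 * N * R) * (R * s) ≤ g 2 * g i)
    (k1 : 2 * K ≤ a) (k2 : 2 * i * R + K ≤ b) (k3 : 2 * (K * a) ≤ g i) (k4 : K ≤ 2 * i * R) :
    plethMult a b m (gw m g) ≤ plethMult b a m (gw m g) := by
  set d1 := 2 * i * N * R with hd1
  set d2 := 8 * N * R with hd2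
  have hd1p : 0 < d1 := by positivity
  have hd2p : 0 < d2 := by positivity
  have hNp : 0 < 8 * N := by positivity
  obtain ⟨h1, h2, hh, e1, e2, e3, e4⟩ : ∃ h1 h2 : ℕ, R * s ≤ h1 * h2 ∧ 8 * N * (h1 + 1) ≤ a ∧
      8 * N * (h2 + 1) ≤ a ∧ d1 * (h1 + 1) ≤ g 2 ∧ d2 * (h2 + 1) ≤ g i := by
    have q1 := (y4_div hNp (by omega : 4 * (8 * N) ≤ a)).2
    have q2 := (y4_div hd1p c2).2
    have q3 := (y4_div hd2p c3).2
    have z : ∀ {n d : ℕ}, 1 ≤ n / d → d * (n / d - 1 + 1) ≤ n := by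
      intro n d hnd
      rw [Nat.sub_add_cancel hnd]
      exact Nat.mul_div_le n d
    have z' : ∀ {n d k : ℕ}, 1 ≤ k → k ≤ n / d → d * (k - 1 + 1) ≤ n := by
      intro n d k hk hkn
      rw [Nat.sub_add_cancel hk]
      exact (Nat.mul_le_mul_left d hkn).trans (Nat.mul_div_le n d)
    rcases le_total (a / (8 * N)) (g 2 / d1) with ha | ha
    · rcases le_total (a / (8 * N)) (g i / d2) with hb | hb
      · exact ⟨a / (8 * N) - 1, a / (8 * N) - 1, y4_prod hNp hNp (by omega) (by omega) p1,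
          z q1, z q1, z' q1 ha, z' q1 hb⟩
      · exact ⟨a / (8 * N) - 1, g i / d2 - 1, y4_prod hNp hd2p (by omega) c3 p2,
          z q1, z' q3 hb, z' q1 ha, z q3⟩
    · rcases le_total (a / (8 * N)) (g i / d2) with hb | hb
      · exact ⟨g 2 / d1 - 1, a / (8 * N) - 1, y4_prod hd1p hNp c2 (by omega) p3,
          z' q2 ha, z q1, z q2, z' q1 hb⟩
      · exact ⟨g 2 / d1 - 1, g i / d2 - 1, y4_prod hd1p hd2p c2 c3 p4,
          z' q2 ha, z' q3 hb, z q2, z q3⟩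
  set c := 2 * N * (h1 + 1) + 2 * N * (h2 + 1) with hc
  set u : ℕ → ℕ := fun j => (if j = 2 then 2 * i * N * (h1 + 1) * R else 0) +
    (if j = i then 4 * N * (h2 + 1) * R else 0) with hu
  have hi2 : i ≠ 2 := by omega
  have hu2 : u 2 = 2 * i * N * (h1 + 1) * R := by
    simp only [hu, if_true]
    rw [if_neg (Ne.symm hi2), add_zero]
  have hui : u i = 4 * N * (h2 + 1) * R := by
    simp only [hu, if_true]
    rw [if_neg hi2, zero_add]
  have e3' : u 2 ≤ g 2 := by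
    rw [hu2]
    calc 2 * i * N * (h1 + 1) * R = d1 * (h1 + 1) := by rw [hd1]; ring
      _ ≤ g 2 := e3
  have e4' : 2 * u i ≤ g i := by
    rw [hui]
    calc 2 * (4 * N * (h2 + 1) * R) = d2 * (h2 + 1) := by rw [hd2]; ring
      _ ≤ g i := e4
  have hug : ∀ j, u j ≤ g j := by
    intro j
    by_cases hj2 : j = 2
    · rw [hj2]; exact e3'
    · by_cases hji : j = i
      · rw [hji]; omega
      · simp only [hu]
        rw [if_neg hj2, if_neg hji]
        exact Nat.zero_le _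
  have hsu : ∑ j ∈ Finset.Icc 1 m, j * u j = c * (2 * i * R) := by
    have s1 : ∑ j ∈ Finset.Icc 1 m, j * u j =
        ∑ j ∈ Finset.Icc 1 m, (if j = 2 then 2 * (2 * i * N * (h1 + 1) * R) else 0) +
        ∑ j ∈ Finset.Icc 1 m, (if j = i then i * (4 * N * (h2 + 1) * R) else 0) := by
      rw [← Finset.sum_add_distrib]
      apply Finset.sum_congr rfl
      intro j _
      simp only [hu]
      by_cases hj2 : j = 2
      · have hji : ¬ (j = i) := by omega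
        rw [if_pos hj2, if_neg hji, if_pos hj2, if_neg hji, hj2, add_zero, add_zero]
      · by_cases hji : j = i
        · rw [if_neg hj2, if_pos hji, if_neg hj2, if_pos hji, hji, zero_add, zero_add]
        · rw [if_neg hj2, if_neg hji, if_neg hj2, if_neg hji]
          ring
    rw [s1, Finset.sum_ite_eq', Finset.sum_ite_eq', if_pos (Finset.mem_Icc.2 ⟨by omega, by omega⟩),
      if_pos (Finset.mem_Icc.2 ⟨by omega, him⟩), hc]
    ring
  have hgw : gw m u = (2 * i * N * (h1 + 1) * R) • om m 2 + (4 * N * (h2 + 1) * R) • om m i := by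
    funext k
    simp only [gw, om, Pi.add_apply, Pi.smul_apply, smul_eq_mul, hu]
    rw [Finset.sum_add_distrib, Finset.sum_ite_eq', Finset.sum_ite_eq']
    congr 1
    · by_cases hk : (k : ℕ) < 2
      · rw [if_pos (by rw [Finset.mem_Ioc]; omega), if_pos hk, Nat.mul_one]
      · rw [if_neg (by rw [Finset.mem_Ioc]; omega), if_neg hk, Nat.mul_zero]
    · by_cases hk : (k : ℕ) < i
      · rw [if_pos (by rw [Finset.mem_Ioc]; omega), if_pos hk, Nat.mul_one]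
      · rw [if_neg (by rw [Finset.mem_Ioc]; omega), if_neg hk, Nat.mul_zero]
  have hrich := rich h1 h2 R s hh
  rw [← hgw] at hrich
  have hca : 2 * c ≤ a := by
    have r1 : 4 * c = 8 * N * (h1 + 1) + 8 * N * (h2 + 1) := by rw [hc]; ring
    omega
  have hfin := core a b (2 * i * R) c (s ^ R) u g ⟨2 * R, by ring⟩ k4 (by omega) k2 hug hsu hs
    (by omega) hrich
  refine (plethMult_le_pow a b m _).trans (le_trans ?_ hfin)
  calc (b + 1) ^ (m * a) ≤ (a ^ 2) ^ (m * a) := Nat.pow_le_pow_left hab _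
    _ ≤ ((s ^ q) ^ 2) ^ (m * a) := Nat.pow_le_pow_left (Nat.pow_le_pow_left has _) _
    _ = s ^ R := by
      rw [← pow_mul, ← pow_mul, hR]
      congr 1
      ring

/-- Row Y4. -/
theorem gap_mix_of {m i : ℕ} (hi : 3 ≤ i) (him : i ≤ m) {ε : ℝ} (hε : 0 < ε)
    (gap_core : ∃ K : ℕ, ∀ (a b B c S : ℕ) (u g : ℕ → ℕ),
      i ∣ B → K ≤ B → K + c ≤ a → B + K ≤ b → (∀ j, u j ≤ g j) →
      ∑ j ∈ Finset.Icc 1 m, j * u j = c * B → ∑ j ∈ Finset.Icc 1 m, j * g j = a * b →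
      u i + K * a ≤ g i → S ≤ plethMult B c m (gw m u) → S ≤ plethMult b a m (gw m g))
    (rich_mix : ∃ N : ℕ, 0 < N ∧ ∀ h1 h2 R s : ℕ, R * s ≤ h1 * h2 →
      s ^ R ≤ plethMult (2 * i * R) (2 * N * (h1 + 1) + 2 * N * (h2 + 1)) m
        ((2 * i * N * (h1 + 1) * R) • om m 2 + (4 * N * (h2 + 1) * R) • om m i)) :
    ∃ C : ℝ, 0 < C ∧ ∀ (a b : ℕ) (g : ℕ → ℕ), C * a ≤ b →
    ∑ j ∈ Finset.Icc 1 m, j * g j = a * b →
    C * (a : ℝ) ^ (1 + ε) ≤ g 2 → C * (a : ℝ) ^ (1 + ε) ≤ g i →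
    C * (a : ℝ) ^ (3 + ε) ≤ (g 2 : ℝ) * g i →
    plethMult a b m (gw m g) ≤ plethMult b a m (gw m g) := by
  obtain ⟨K, hcore⟩ := gap_core
  obtain ⟨N, hN, hrich⟩ := rich_mix
  obtain ⟨q0, hq0⟩ := exists_nat_gt (1 / ε)
  set q := q0 + 2 with hq
  have hqe : (q : ℝ)⁻¹ ≤ ε := by
    have h1 : (q0 : ℝ) ≤ q := by
      rw [hq]; push_cast; linarith
    have h2 : 0 < 1 / ε := by positivity
    have h3 : (q : ℝ)⁻¹ ≤ (1 / ε)⁻¹ := by
      apply inv_anti₀ h2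
      linarith
    rw [one_div, inv_inv] at h3
    exact h3
  have hm : 0 < m := by omega
  have hqp : 0 < q := by omega
  -- constants
  obtain ⟨M, hM⟩ : ∃ M : ℕ, M = 1024 * N ^ 2 * m * q := ⟨_, rfl⟩
  obtain ⟨C0, hC0⟩ : ∃ C0 : ℕ, C0 = 1 + M ^ 2 + 32 * N + 2 * K + 16 * i * N * m * q +
    64 * N * m * q + 4 * i * m * q + 2048 * N ^ 2 * m ^ 2 * q ^ 2 +
    512 * i * N ^ 2 * m ^ 2 * q ^ 2 + 1024 * i * N ^ 2 * m ^ 3 * q ^ 3 := ⟨_, rfl⟩
  refine ⟨C0, ?_, ?_⟩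
  · have : 0 < C0 := by omega
    exact_mod_cast this
  intro a b g hCa hs hg2 hgi hgg
  by_cases hquad : (a - 1) ^ 2 ≤ b
  · exact foulkes_quadratic hquad _
  have hCa' : C0 * a ≤ b := by exact_mod_cast hCa
  have ha1 : 1 ≤ a := by
    by_contra h0
    have : a = 0 := by omega
    apply hquad
    rw [this]
    simp
  have hab : b + 1 ≤ a ^ 2 := by
    have h1 : b + 1 ≤ (a - 1) ^ 2 := by omega
    exact h1.trans (Nat.pow_le_pow_left (by omega) 2)
  have hC0a : C0 ≤ a := by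
    have h1 : C0 * a ≤ a * a := by
      have : a ^ 2 = a * a := by ring
      omega
    exact Nat.le_of_mul_le_mul_right h1 ha1
  have haR : (1 : ℝ) ≤ (a : ℝ) := by exact_mod_cast ha1
  have ha0 : (0 : ℝ) ≤ (a : ℝ) := by positivity
  -- the numbers `x`, `s`
  set x : ℝ := (a : ℝ) ^ ((q : ℝ)⁻¹) with hx
  have hxq : x ^ q = a := Real.rpow_inv_natCast_pow ha0 (by omega)
  have hx1 : 1 ≤ x := Real.one_le_rpow haR (by positivity)
  have hx0 : 0 ≤ x := by linarith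
  have hxx : x ^ 2 ≤ a := by
    rw [← hxq]
    exact pow_le_pow_right₀ hx1 (by omega)
  have hxe : x ≤ (a : ℝ) ^ ε := Real.rpow_le_rpow_of_exponent_le haR hqe
  set s := ⌈x⌉₊ with hsdef
  have hs1 : x ≤ s := Nat.le_ceil x
  have hs2 : (s : ℝ) ≤ 2 * x := by
    have := Nat.ceil_lt_add_one hx0
    linarith
  have has : a ≤ s ^ q := by
    have h1 : (a : ℝ) ≤ ((s ^ q : ℕ) : ℝ) := by
      rw [← hxq]
      push_cast
      exact pow_le_pow_left₀ hx0 hs1 q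
    exact_mod_cast h1
  set w : ℝ := (a : ℝ) ^ (1 + ε) with hw
  have haw : (a : ℝ) * (a : ℝ) ^ ε = w := by
    rw [hw, Real.rpow_add (by linarith), Real.rpow_one]
  have hw0 : 0 ≤ w := by positivity
  have hasw : (a : ℝ) * s ≤ 2 * w := by
    rw [← haw]
    calc (a : ℝ) * s ≤ a * (2 * x) := mul_le_mul_of_nonneg_left hs2 ha0
      _ ≤ a * (2 * (a : ℝ) ^ ε) := by gcongr
      _ = 2 * (a * (a : ℝ) ^ ε) := by ring
  have hae : (a : ℝ) ≤ w := by
    rw [hw]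
    calc (a : ℝ) = (a : ℝ) ^ (1 : ℝ) := (Real.rpow_one _).symm
      _ ≤ (a : ℝ) ^ (1 + ε) := Real.rpow_le_rpow_of_exponent_le haR (by linarith)
  have h3e : (a : ℝ) ^ (3 + ε) = (a : ℝ) ^ 2 * w := by
    rw [hw, ← Real.rpow_natCast, ← Real.rpow_add (by linarith)]
    congr 1
    push_cast
    ring
  have cw : ∀ (k : ℕ) (y : ℝ), k ≤ C0 → C0 * w ≤ y → (k : ℝ) * w ≤ y := by
    intro k y hk hy
    have : (k : ℝ) ≤ C0 := by exact_mod_cast hk
    exact (mul_le_mul_of_nonneg_right this hw0).trans hy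
  have ca : ∀ (k n : ℕ), k ≤ C0 → C0 * w ≤ n → k * a ≤ n := by
    intro k n hk hn
    have h1 := cw k n hk hn
    have h2 : (k : ℝ) * a ≤ k * w := mul_le_mul_of_nonneg_left hae (Nat.cast_nonneg k)
    exact_mod_cast h2.trans h1
  refine y4_int hi him hN hcore hrich (q := q) (s := s) (R := 2 * m * q * a) g hs rfl
    (by positivity) has hab (by omega) ?_ ?_ ?_ ?_ ?_ ?_ (by omega) ?_ ?_ ?_
  · calc 4 * (2 * i * N * (2 * m * q * a)) = (16 * i * N * m * q) * a := by ring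
      _ ≤ g 2 := ca _ _ (by omega) hg2
  · calc 4 * (8 * N * (2 * m * q * a)) = (64 * N * m * q) * a := by ring
      _ ≤ g i := ca _ _ (by omega) hgi
  · -- p1
    have h1 : ((4 * (8 * N) * (8 * N) * (2 * m * q * a * s) : ℕ) : ℝ) ≤ ((a * a : ℕ) : ℝ) := by
      have g1 : ((M : ℕ) : ℝ) ^ 2 ≤ a := by
        have : M ^ 2 ≤ a := by omega
        exact_mod_cast this
      have g2 : ((M : ℝ) * x) ^ 2 ≤ (a : ℝ) ^ 2 := by
        calc ((M : ℝ) * x) ^ 2 = (M : ℝ) ^ 2 * x ^ 2 := by ring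
          _ ≤ (a : ℝ) * (a : ℝ) := mul_le_mul g1 hxx (by positivity) ha0
          _ = (a : ℝ) ^ 2 := by ring
      have g3 : (M : ℝ) * x ≤ a := (sq_le_sq₀ (by positivity) ha0).1 g2
      have hMr : (M : ℝ) = 1024 * N ^ 2 * m * q := by rw [hM]; push_cast; ring
      push_cast
      calc 4 * (8 * (N : ℝ)) * (8 * N) * (2 * m * q * a * s)
          = (512 * N ^ 2 * m * q * a) * s := by ring
        _ ≤ (512 * N ^ 2 * m * q * a) * (2 * x) := mul_le_mul_of_nonneg_left hs2 (by positivity)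
        _ = a * (M * x) := by rw [hMr]; ring
        _ ≤ a * a := mul_le_mul_of_nonneg_left g3 ha0
    exact_mod_cast h1
  · -- p2
    have h1 : ((4 * (8 * N) * (8 * N * (2 * m * q * a)) * (2 * m * q * a * s) : ℕ) : ℝ) ≤
        ((a * g i : ℕ) : ℝ) := by
      have g1 := cw (2048 * N ^ 2 * m ^ 2 * q ^ 2) (g i) (by omega) hgi
      push_cast at g1 ⊢
      calc 4 * (8 * (N : ℝ)) * (8 * N * (2 * m * q * a)) * (2 * m * q * a * s)
          = (1024 * N ^ 2 * m ^ 2 * q ^ 2 * a) * (a * s) := by ring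
        _ ≤ (1024 * N ^ 2 * m ^ 2 * q ^ 2 * a) * (2 * w) :=
          mul_le_mul_of_nonneg_left hasw (by positivity)
        _ = a * (2048 * N ^ 2 * m ^ 2 * q ^ 2 * w) := by ring
        _ ≤ a * g i := mul_le_mul_of_nonneg_left g1 ha0
    exact_mod_cast h1
  · -- p3
    have h1 : ((4 * (2 * i * N * (2 * m * q * a)) * (8 * N) * (2 * m * q * a * s) : ℕ) : ℝ) ≤
        ((g 2 * a : ℕ) : ℝ) := by
      have g1 := cw (512 * i * N ^ 2 * m ^ 2 * q ^ 2) (g 2) (by omega) hg2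
      push_cast at g1 ⊢
      calc 4 * (2 * (i : ℝ) * N * (2 * m * q * a)) * (8 * N) * (2 * m * q * a * s)
          = (256 * i * N ^ 2 * m ^ 2 * q ^ 2 * a) * (a * s) := by ring
        _ ≤ (256 * i * N ^ 2 * m ^ 2 * q ^ 2 * a) * (2 * w) :=
          mul_le_mul_of_nonneg_left hasw (by positivity)
        _ = (512 * i * N ^ 2 * m ^ 2 * q ^ 2 * w) * a := by ring
        _ ≤ g 2 * a := mul_le_mul_of_nonneg_right g1 ha0
    exact_mod_cast h1
  · -- p4
    have h1 : ((4 * (2 * i * N * (2 * m * q * a)) * (8 * N * (2 * m * q * a)) *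
        (2 * m * q * a * s) : ℕ) : ℝ) ≤ ((g 2 * g i : ℕ) : ℝ) := by
      have g0 : (0 : ℝ) ≤ (a : ℝ) ^ 2 := by positivity
      have g1 : ((1024 * i * N ^ 2 * m ^ 3 * q ^ 3 : ℕ) : ℝ) * ((a : ℝ) ^ 2 * w) ≤
          (g 2 : ℝ) * g i := by
        rw [← h3e]
        refine le_trans (mul_le_mul_of_nonneg_right ?_ (by positivity)) hgg
        have : 1024 * i * N ^ 2 * m ^ 3 * q ^ 3 ≤ C0 := by omega
        exact_mod_cast this
      push_cast at g1 ⊢
      calc 4 * (2 * (i : ℝ) * N * (2 * m * q * a)) * (8 * N * (2 * m * q * a)) *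
            (2 * m * q * a * s)
          = (512 * i * N ^ 2 * m ^ 3 * q ^ 3 * a ^ 2) * (a * s) := by ring
        _ ≤ (512 * i * N ^ 2 * m ^ 3 * q ^ 3 * a ^ 2) * (2 * w) :=
          mul_le_mul_of_nonneg_left hasw (by positivity)
        _ = 1024 * i * N ^ 2 * m ^ 3 * q ^ 3 * (a ^ 2 * w) := by ring
        _ ≤ g 2 * g i := g1
    exact_mod_cast h1
  · calc 2 * i * (2 * m * q * a) + K ≤ (4 * i * m * q) * a + K * a := by
          have e1 : 2 * i * (2 * m * q * a) = (4 * i * m * q) * a := by ring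
          have e2 : K ≤ K * a := Nat.le_mul_of_pos_right _ ha1
          omega
      _ = (4 * i * m * q + K) * a := by ring
      _ ≤ C0 * a := Nat.mul_le_mul_right a (by omega)
      _ ≤ b := hCa'
  · calc 2 * (K * a) = (2 * K) * a := by ring
      _ ≤ g i := ca _ _ (by omega) hgi
  · calc K ≤ 1 * a := by omega
      _ ≤ (2 * i * (2 * m * q)) * a := Nat.mul_le_mul_right a (Nat.succ_le_of_lt (by positivity))
      _ = 2 * i * (2 * m * q * a) := by ring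

end Vale.Agent.P181.FR
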