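import Vale.Agent.P181.R2.H424.W13

set_option autoImplicit false

namespace Vale.Agent.P181.FR

open Vale.Agent.P181 Vale.Agent.P181.H280

/-- The integer core of Y5. -/
lemma y5_int {m i : ℕ} (hi : 3 ≤ i) (him : i ≤ m) {K N : ℕ}
    (core : ∀ (a b B c S : ℕ) (u g : ℕ → ℕ),
      i ∣ B → K ≤ B → K + c ≤ a → B + K ≤ b → (∀ j, u j ≤ g j) →
      ∑ j ∈ Finset.Icc 1 m, j * u j = c * B → ∑ j ∈ Finset.Icc 1 m, j * g j = a * b →
      u i + K * a ≤ g i → S ≤ plethMult B c m (gw m u) → S ≤ plethMult b a m (gw m g))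
    (rich : ∀ c h R s : ℕ, N * (h + 1) ≤ c → R * s ≤ h * h →
      s ^ R ≤ plethMult (2 * i * R) (2 * c) m ((4 * c * R) • om m i))
    {a b q s h c R : ℕ} (g : ℕ → ℕ) (hs : ∑ j ∈ Finset.Icc 1 m, j * g j = a * b)
    (hR : R = 2 * m * q * a) (has : a ≤ s ^ q) (hab : b + 1 ≤ a ^ 2)
    (hRs : R * s ≤ h * h) (hc : N * (h + 1) ≤ c) (k0 : 4 * c ≤ a)
    (k1 : 2 * K ≤ a) (k2 : 2 * i * R + K ≤ b) (k3 : 4 * c * R + K * a ≤ g i)
    (k4 : K ≤ 2 * i * R) :
    plethMult a b m (gw m g) ≤ plethMult b a m (gw m g) := by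
  set u : ℕ → ℕ := fun j => if j = i then 4 * c * R else 0 with hu
  have hui : u i = 4 * c * R := by
    simp only [hu, if_true]
  have hug : ∀ j, u j ≤ g j := by
    intro j
    by_cases hji : j = i
    · rw [hji, hui]
      have : 0 ≤ K * a := Nat.zero_le _
      omega
    · simp only [hu]
      rw [if_neg hji]
      exact Nat.zero_le _
  have hsu : ∑ j ∈ Finset.Icc 1 m, j * u j = 2 * c * (2 * i * R) := by
    have s1 : ∑ j ∈ Finset.Icc 1 m, j * u j =
        ∑ j ∈ Finset.Icc 1 m, (if j = i then i * (4 * c * R) else 0) := by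
      apply Finset.sum_congr rfl
      intro j _
      simp only [hu]
      by_cases hji : j = i
      · rw [if_pos hji, if_pos hji, hji]
      · rw [if_neg hji, if_neg hji, Nat.mul_zero]
    rw [s1, Finset.sum_ite_eq', if_pos (Finset.mem_Icc.2 ⟨by omega, him⟩)]
    ring
  have hgw : gw m u = (4 * c * R) • om m i := by
    funext k
    simp only [gw, om, Pi.smul_apply, smul_eq_mul, hu]
    rw [Finset.sum_ite_eq']
    by_cases hk : (k : ℕ) < i
    · rw [if_pos (by rw [Finset.mem_Ioc]; omega), if_pos hk, Nat.mul_one]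
    · rw [if_neg (by rw [Finset.mem_Ioc]; omega), if_neg hk, Nat.mul_zero]
  have hrich := rich c h R s hc hRs
  rw [← hgw] at hrich
  have hfin := core a b (2 * i * R) (2 * c) (s ^ R) u g ⟨2 * R, by ring⟩ k4 (by omega) k2 hug hsu
    hs (by rw [hui]; exact k3) hrich
  refine (plethMult_le_pow a b m _).trans (le_trans ?_ hfin)
  calc (b + 1) ^ (m * a) ≤ (a ^ 2) ^ (m * a) := Nat.pow_le_pow_left hab _
    _ ≤ ((s ^ q) ^ 2) ^ (m * a) := Nat.pow_le_pow_left (Nat.pow_le_pow_left has _) _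
    _ = s ^ R := by
      rw [← pow_mul, ← pow_mul, hR]
      congr 1
      ring

/-- Row Y5. -/
theorem gap_pure_of {m i : ℕ} (hi : 3 ≤ i) (him : i ≤ m) {ε : ℝ} (hε : 0 < ε)
    (gap_core : ∃ K : ℕ, ∀ (a b B c S : ℕ) (u g : ℕ → ℕ),
      i ∣ B → K ≤ B → K + c ≤ a → B + K ≤ b → (∀ j, u j ≤ g j) →
      ∑ j ∈ Finset.Icc 1 m, j * u j = c * B → ∑ j ∈ Finset.Icc 1 m, j * g j = a * b →
      u i + K * a ≤ g i → S ≤ plethMult B c m (gw m u) → S ≤ plethMult b a m (gw m g))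
    (rich_rect : ∃ N : ℕ, ∀ c h R s : ℕ, N * (h + 1) ≤ c → R * s ≤ h * h →
      s ^ R ≤ plethMult (2 * i * R) (2 * c) m ((4 * c * R) • om m i)) :
    ∃ C : ℝ, 0 < C ∧ ∀ (a b : ℕ) (g : ℕ → ℕ), C * a ≤ b →
    ∑ j ∈ Finset.Icc 1 m, j * g j = a * b → C * (a : ℝ) ^ (3 / 2 + ε) ≤ g i →
    plethMult a b m (gw m g) ≤ plethMult b a m (gw m g) := by
  obtain ⟨K0, hcore⟩ := gap_core
  obtain ⟨N, hrich⟩ := rich_rect
  obtain ⟨q0, hq0⟩ := exists_nat_gt (1 / (2 * ε))
  set q := q0 + 2 with hq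
  have hqe : (q : ℝ)⁻¹ ≤ 2 * ε := by
    have h1 : (q0 : ℝ) ≤ q := by
      rw [hq]; push_cast; linarith
    have h2 : 0 < 1 / (2 * ε) := by positivity
    have h3 : (q : ℝ)⁻¹ ≤ (1 / (2 * ε))⁻¹ := by
      apply inv_anti₀ h2
      linarith
    rw [one_div, inv_inv] at h3
    exact h3
  have hm : 0 < m := by omega
  have hqp : 0 < q := by omega
  obtain ⟨K, hK⟩ : ∃ K : ℕ, K = 32 * N ^ 2 * m * q := ⟨_, rfl⟩
  obtain ⟨C0, hC0⟩ : ∃ C0 : ℕ, C0 = 1 + 8 * m * q * (2 * K + 1) + (32 * K) ^ 2 + 2 * K0 +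
    4 * i * m * q := ⟨_, rfl⟩
  refine ⟨C0, ?_, ?_⟩
  · have : 0 < C0 := by omega
    exact_mod_cast this
  intro a b g hCa hs hCg
  by_cases hquad : (a - 1) ^ 2 ≤ b
  · exact foulkes_quadratic hquad _
  have hCa' : C0 * a ≤ b := by exact_mod_cast hCa
  have ha1 : 1 ≤ a := by
    by_contra h0
    have : a = 0 := by omega
    apply hquad
    rw [this]
    simp
  have hab : b + 1 ≤ a ^ 2 := by
    have h1 : b + 1 ≤ (a - 1) ^ 2 := by omega
    exact h1.trans (Nat.pow_le_pow_left (by omega) 2)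
  have hC0a : C0 ≤ a := by
    have h1 : C0 * a ≤ a * a := by
      have : a ^ 2 = a * a := by ring
      omega
    exact Nat.le_of_mul_le_mul_right h1 ha1
  have haR : (1 : ℝ) ≤ (a : ℝ) := by exact_mod_cast ha1
  obtain ⟨s, h, c, h1, h2, h3, h4, h5⟩ := w13_num (m := m) (q := q) (N := N) (by omega) (by omega)
    hqe hK ha1 (by omega)
  refine y5_int hi him hcore hrich (q := q) (s := s) (h := h) (c := c) (R := 2 * m * q * a) g hs
    rfl h1 hab h2 h3 h4 (by omega) ?_ ?_ ?_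
  · calc 2 * i * (2 * m * q * a) + K0 ≤ (4 * i * m * q) * a + K0 * a := by
          have e1 : 2 * i * (2 * m * q * a) = (4 * i * m * q) * a := by ring
          have e2 : K0 ≤ K0 * a := Nat.le_mul_of_pos_right _ ha1
          omega
      _ = (4 * i * m * q + K0) * a := by ring
      _ ≤ C0 * a := Nat.mul_le_mul_right a (by omega)
      _ ≤ b := hCa'
  · have h6 : ((4 * c * (2 * m * q * a) + K0 * a : ℕ) : ℝ) ≤ g i := by
      refine le_trans ?_ hCg
      have e1 : (a : ℝ) * (a : ℝ) ^ (1 / 2 + ε) = (a : ℝ) ^ (3 / 2 + ε) := by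
        nth_rewrite 1 [← Real.rpow_one (a : ℝ)]
        rw [← Real.rpow_add (by exact_mod_cast ha1)]
        congr 1
        ring
      have e2 : (4 : ℝ) * c * (2 * m * q * a) ≤
          8 * m * q * (2 * K + 1) * (a : ℝ) ^ (3 / 2 + ε) := by
        rw [← e1]
        have h7 : (0 : ℝ) ≤ 8 * m * q * a := by positivity
        calc (4 : ℝ) * c * (2 * m * q * a) = (8 * m * q * a) * c := by ring
          _ ≤ (8 * m * q * a) * ((2 * K + 1) * (a : ℝ) ^ (1 / 2 + ε)) :=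
            mul_le_mul_of_nonneg_left h5 h7
          _ = 8 * m * q * (2 * K + 1) * (a * (a : ℝ) ^ (1 / 2 + ε)) := by ring
      have e3 : (8 : ℝ) * m * q * (2 * K + 1) + K0 ≤ C0 := by
        have : 8 * m * q * (2 * K + 1) + K0 ≤ C0 := by omega
        exact_mod_cast this
      have e4 : (a : ℝ) ≤ (a : ℝ) ^ (3 / 2 + ε) := by
        calc (a : ℝ) = (a : ℝ) ^ (1 : ℝ) := (Real.rpow_one _).symm
          _ ≤ (a : ℝ) ^ (3 / 2 + ε) := Real.rpow_le_rpow_of_exponent_le haR (by linarith)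
      have e5 : (K0 : ℝ) * a ≤ K0 * (a : ℝ) ^ (3 / 2 + ε) :=
        mul_le_mul_of_nonneg_left e4 (Nat.cast_nonneg K0)
      have hpw : (0 : ℝ) ≤ (a : ℝ) ^ (3 / 2 + ε) := by positivity
      have e6 := mul_le_mul_of_nonneg_right e3 hpw
      push_cast
      linarith [e6, e5, e2]
    exact_mod_cast h6
  · calc K0 ≤ 1 * a := by omega
      _ ≤ (2 * i * (2 * m * q)) * a := Nat.mul_le_mul_right a (Nat.succ_le_of_lt (by positivity))
      _ = 2 * i * (2 * m * q * a) := by ring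

end Vale.Agent.P181.FR
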