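import Mathlib

/-!
P181 row C5: the pure recursion of the cubic tail growth (both shears, three rows).
-/

namespace Vale.Agent.P181.R2.H424

/-- The four inputs of the recursion, for a fixed number `a` of slots. -/
structure Inp (a : ℕ) (K : ℕ → ℕ → Prop) : Prop where
  start : ∀ b t s, 1 ≤ s → 2 * (a - 1) ≤ b → t + (a - 1) * (s ^ 2 + s - 1) ≤ s * b → K b t
  step : ∀ b t s, 1 ≤ s → s ≤ a → a ≤ b + 1 → (∀ t', t' + s ≤ t → K b t') →
    (s - 1) * (b + 3) + 3 * (a * (a - 1)) < 3 * t → K (b + 1) t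
  mck : ∀ b t, a ≤ b + 1 → (∀ t', t' ≤ t → K b t') → K (b + 1) t
  dom : ∀ b t, a * b < 3 * t → K b t

/-- The invariant at level `b`, started with the parameter `m`: `a = n + 1`,
first level `n * (2 * m + 1)`. -/
def Good (n m : ℕ) (K : ℕ → ℕ → Prop) (b : ℕ) : Prop :=
  (∀ t, K b t) ∨ ∃ T y : ℕ, 0 < y ∧ y + 3 * ((n + 1) * n) = 3 * T + 3 ∧ (∀ t, t ≤ T → K b t) ∧
    (3 * (n * (m ^ 2 - n)) + 3) * ((b + 3) * (b + 4) * (b + 5)) ≤
      y * ((n * (2 * m + 1) + 3) * (n * (2 * m + 1) + 4) * (n * (2 * m + 1) + 5))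

theorem good_start {n m : ℕ} {K : ℕ → ℕ → Prop} (H : Inp (n + 1) K) (hm : 1 ≤ m)
    (hnm : n ≤ m ^ 2) : Good n m K (n * (2 * m + 1)) := by
  refine Or.inr ⟨n * (m ^ 2 + 1), 3 * (n * (m ^ 2 - n)) + 3, by omega, ?_, ?_, le_refl _⟩
  · obtain ⟨d, hd⟩ := Nat.exists_eq_add_of_le hnm
    rw [hd, Nat.add_sub_cancel_left]
    ring
  · intro t ht
    refine H.start _ t m hm ?_ ?_
    · rw [Nat.add_sub_cancel]
      nlinarith [Nat.zero_le n]
    · rw [Nat.add_sub_cancel]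
      have h1 : 1 ≤ m ^ 2 + m := by nlinarith
      obtain ⟨e, he⟩ := Nat.exists_eq_add_of_le h1
      have h2 : m ^ 2 + m - 1 = e := by omega
      rw [h2]
      have h3 : n * (m ^ 2 + m) = n * (1 + e) := by rw [he]
      nlinarith

theorem good_full {n : ℕ} {K : ℕ → ℕ → Prop} (H : Inp (n + 1) K) {b T y : ℕ}
    (hy : y + 3 * ((n + 1) * n) = 3 * T + 3) (hT : ∀ t, t ≤ T → K b t)
    (h : (n + 1) * b < y + 3 * ((n + 1) * n)) (t : ℕ) : K b t := by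
  rcases Nat.lt_or_ge T t with h1 | h1
  · exact H.dom b t (by omega)
  · exact hT t h1

theorem good_step {n m : ℕ} {K : ℕ → ℕ → Prop} (H : Inp (n + 1) K) {b : ℕ} (hb : n ≤ b)
    (h : Good n m K b) : Good n m K (b + 1) := by
  rcases h with h | ⟨T, y, hy0, hy, hT, hI⟩
  · exact Or.inl fun t => H.mck b t (by omega) fun t' _ => h t'
  · by_cases hs : y ≤ (n + 1) * (b + 3)
    · -- the slope
      obtain ⟨s, hs1, hs2, hs3⟩ : ∃ s : ℕ, 1 ≤ s ∧ y ≤ s * (b + 3) ∧ (s - 1) * (b + 3) < y := by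
        refine ⟨(y - 1) / (b + 3) + 1, Nat.le_add_left _ _, ?_, ?_⟩
        · have h1 := Nat.lt_div_mul_add (a := y - 1) (b := b + 3) (by omega)
          have h2 : ((y - 1) / (b + 3) + 1) * (b + 3) = (y - 1) / (b + 3) * (b + 3) + (b + 3) := by
            ring
          omega
        · rw [Nat.add_sub_cancel]
          have h1 := Nat.div_mul_le_self (y - 1) (b + 3)
          omega
      have hsa : s ≤ n + 1 := by
        by_contra hc
        have h1 : (n + 1) * (b + 3) ≤ (s - 1) * (b + 3) := Nat.mul_le_mul_right _ (by omega)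
        omega
      refine Or.inr ⟨T + s, y + 3 * s, by omega, by omega, ?_, ?_⟩
      · intro t ht
        rcases Nat.lt_or_ge T t with h1 | h1
        · refine H.step b t s hs1 hsa (by omega) (fun t' ht' => hT t' (by omega)) ?_
          rw [Nat.add_sub_cancel]
          omega
        · exact H.mck b t (by omega) fun t' ht' => hT t' (by omega)
      · set D := (n * (2 * m + 1) + 3) * (n * (2 * m + 1) + 4) * (n * (2 * m + 1) + 5) with hD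
        set Y := 3 * (n * (m ^ 2 - n)) + 3 with hY
        have h1 : y * (b + 6) ≤ (y + 3 * s) * (b + 3) := by nlinarith
        have h2 : Y * ((b + 3) * (b + 4) * (b + 5)) * (b + 6) ≤ (y + 3 * s) * D * (b + 3) := by
          calc Y * ((b + 3) * (b + 4) * (b + 5)) * (b + 6) ≤ y * D * (b + 6) :=
                Nat.mul_le_mul_right _ hI
            _ = y * (b + 6) * D := by ring
            _ ≤ (y + 3 * s) * (b + 3) * D := Nat.mul_le_mul_right _ h1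
            _ = (y + 3 * s) * D * (b + 3) := by ring
        have h3 : Y * ((b + 3) * (b + 4) * (b + 5)) * (b + 6) =
            Y * ((b + 1 + 3) * (b + 1 + 4) * (b + 1 + 5)) * (b + 3) := by ring
        rw [h3] at h2
        exact Nat.le_of_mul_le_mul_right h2 (by omega)
    · refine Or.inl fun t => H.mck b t (by omega) fun t' _ => ?_
      refine good_full H hy hT ?_ t'
      nlinarith

theorem good_all {n m : ℕ} {K : ℕ → ℕ → Prop} (H : Inp (n + 1) K) (hm : 1 ≤ m)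
    (hnm : n ≤ m ^ 2) {b : ℕ} (hb : n * (2 * m + 1) ≤ b) : Good n m K b := by
  induction b, hb using Nat.le_induction with
  | base => exact good_start H hm hnm
  | succ b hb ih => exact good_step H (by nlinarith) ih

/-- **The cubic tail bound.** -/
theorem tail {n m : ℕ} {K : ℕ → ℕ → Prop} (H : Inp (n + 1) K) (hm : 1 ≤ m)
    (hnm : n ≤ m ^ 2) {b t : ℕ} (hb : n * (2 * m + 1) ≤ b)
    (ht : 3 * t * ((n * (2 * m + 1) + 3) * (n * (2 * m + 1) + 4) * (n * (2 * m + 1) + 5)) <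
      3 * ((n + 1) * n) * ((n * (2 * m + 1) + 3) * (n * (2 * m + 1) + 4) * (n * (2 * m + 1) + 5)) +
        (3 * (n * (m ^ 2 - n)) + 3) * ((b + 3) * (b + 4) * (b + 5))) : K b t := by
  rcases good_all H hm hnm hb with h | ⟨T, y, hy0, hy, hT, hI⟩
  · exact h t
  · refine hT t ?_
    set D := (n * (2 * m + 1) + 3) * (n * (2 * m + 1) + 4) * (n * (2 * m + 1) + 5) with hD
    have h1 : 3 * t * D < (y + 3 * ((n + 1) * n)) * D := by
      calc 3 * t * D < _ := ht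
        _ ≤ 3 * ((n + 1) * n) * D + y * D := Nat.add_le_add_left hI _
        _ = (y + 3 * ((n + 1) * n)) * D := by ring
    have h2 := Nat.lt_of_mul_lt_mul_right h1
    omega

/-- All weights at once. -/
theorem full_of {n m : ℕ} {K : ℕ → ℕ → Prop} (H : Inp (n + 1) K) (hm : 1 ≤ m)
    (hnm : n ≤ m ^ 2) {b : ℕ} (hb : n * (2 * m + 1) ≤ b)
    (hq : (n + 1) * (n * (2 * m + 1) + 4) ^ 3 ≤ (3 * (n * (m ^ 2 - n)) + 3) * b ^ 2) (t : ℕ) :
    K b t := by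
  rcases good_all H hm hnm hb with h | ⟨T, y, hy0, hy, hT, hI⟩
  · exact h t
  · refine good_full H hy hT ?_ t
    set x := n * (2 * m + 1) with hx
    set Y := 3 * (n * (m ^ 2 - n)) + 3 with hY
    have hY0 : 0 < Y := by omega
    have h1 : (x + 3) * (x + 4) * (x + 5) ≤ (x + 4) ^ 3 := by nlinarith
    have h2 : (n + 1) * b * ((x + 3) * (x + 4) * (x + 5)) < y * ((x + 3) * (x + 4) * (x + 5)) := by
      calc (n + 1) * b * ((x + 3) * (x + 4) * (x + 5)) ≤ (n + 1) * b * (x + 4) ^ 3 :=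
            Nat.mul_le_mul_left _ h1
        _ = b * ((n + 1) * (x + 4) ^ 3) := by ring
        _ ≤ b * (Y * b ^ 2) := Nat.mul_le_mul_left _ hq
        _ = Y * b ^ 3 := by ring
        _ < Y * ((b + 3) * (b + 4) * (b + 5)) := by
            refine Nat.mul_lt_mul_of_pos_left ?_ hY0
            nlinarith [Nat.zero_le (b ^ 2)]
        _ ≤ _ := hI
    have h3 := Nat.lt_of_mul_lt_mul_right h2
    omega

/-- The choice of the parameter. -/
theorem exists_m (a : ℕ) : ∃ m : ℕ, 3 * a < m ^ 2 ∧ m ^ 2 < 3 * a + 2 * m := by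
  have h1 := Nat.sqrt_le (3 * a)
  have h2 := Nat.lt_succ_sqrt (3 * a)
  rw [Nat.succ_eq_add_one] at h2
  exact ⟨Nat.sqrt (3 * a) + 1, by nlinarith, by nlinarith⟩

theorem key_fin : ∀ n : Fin 40, ∀ m : Fin 12, ¬ (1 ≤ n.1 ∧ 3 * (n.1 + 1) < m.1 ^ 2 ∧
    m.1 ^ 2 < 3 * (n.1 + 1) + 2 * m.1) ∨
      ((n.1 * (2 * m.1 + 1) + 4) ^ 6 ≤
        81 * (n.1 + 1) ^ 5 * (3 * (n.1 * (m.1 ^ 2 - n.1)) + 3) ^ 2 ∧
      (n.1 * (2 * m.1 + 1)) ^ 4 ≤ 81 * (n.1 + 1) ^ 7) := by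
  decide +kernel

theorem key_small {n m : ℕ} (hn : n < 40) (hm : m < 12) (h : 1 ≤ n)
    (h1 : 3 * (n + 1) < m ^ 2) (h2 : m ^ 2 < 3 * (n + 1) + 2 * m) :
    (n * (2 * m + 1) + 4) ^ 6 ≤ 81 * (n + 1) ^ 5 * (3 * (n * (m ^ 2 - n)) + 3) ^ 2 ∧
      (n * (2 * m + 1)) ^ 4 ≤ 81 * (n + 1) ^ 7 :=
  (key_fin ⟨n, hn⟩ ⟨m, hm⟩).resolve_left fun hc => hc ⟨h, h1, h2⟩

theorem key_large {n m : ℕ} (hn : 40 ≤ n) (h1 : 3 * (n + 1) < m ^ 2)
    (h2 : m ^ 2 < 3 * (n + 1) + 2 * m) :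
    (n * (2 * m + 1) + 4) ^ 6 ≤ 81 * (n + 1) ^ 5 * (3 * (n * (m ^ 2 - n)) + 3) ^ 2 := by
  have hm : 12 ≤ m := by
    by_contra hc
    have h3 : m ≤ 11 := by omega
    have h4 : m ^ 2 ≤ 11 ^ 2 := Nat.pow_le_pow_left h3 2
    omega
  obtain ⟨k, hk⟩ := Nat.exists_eq_add_of_le hm
  obtain ⟨w, hw⟩ := Nat.exists_eq_add_of_le (show n ≤ m ^ 2 by omega)
  have hw' : m ^ 2 - n = w := by omega
  rw [hw']
  have hsq : m ^ 2 = k ^ 2 + 24 * k + 144 := by rw [hk]; ring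
  set A0 := k ^ 2 + 22 * k + 118 with hA0
  have hA : A0 ≤ 3 * n := by omega
  have hB : A0 ≤ 3 * w := by omega
  obtain ⟨u, hu⟩ := Nat.exists_eq_add_of_le hA
  obtain ⟨v, hv⟩ := Nat.exists_eq_add_of_le hB
  have huv : A0 + u + v = 2 * (k ^ 2 + 25 * k + 157) := by omega
  have hnw : 2 * (A0 * (k ^ 2 + 25 * k + 157)) ≤ 9 * (n * w) := by
    have e1 : 9 * (n * w) = (A0 + u) * (A0 + v) := by rw [← hu, ← hv]; ring
    have e2 : 2 * (A0 * (k ^ 2 + 25 * k + 157)) = A0 * (A0 + u + v) := by rw [huv]; ring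
    rw [e1, e2]
    nlinarith [Nat.zero_le (u * v)]
  set Y := 3 * (n * w) + 3 with hY
  have hPY : 2 * (A0 * (k ^ 2 + 25 * k + 157)) ≤ 3 * Y := by omega
  have hP : m ^ 2 * (2 * m + 1) ^ 6 ≤ 108 * (A0 * (k ^ 2 + 25 * k + 157)) ^ 2 := by
    have e : 108 * (A0 * (k ^ 2 + 25 * k + 157)) ^ 2 = m ^ 2 * (2 * m + 1) ^ 6 +
        (44 * k ^ 8 + 3816 * k ^ 7 + 142356 * k ^ 6 + 2967464 * k ^ 5 + 37485024 * k ^ 4 +
          289581252 * k ^ 3 + 1298903903 * k ^ 2 + 2891973864 * k + 1910719008) := by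
      rw [hk, hA0]; ring
    rw [e]
    exact Nat.le_add_right _ _
  have hx : n * (2 * m + 1) + 4 ≤ (n + 1) * (2 * m + 1) := by nlinarith
  have c1 : (n * (2 * m + 1) + 4) ^ 6 ≤ (n + 1) ^ 6 * (2 * m + 1) ^ 6 := by
    rw [← mul_pow]; exact Nat.pow_le_pow_left hx 6
  have c2 : 3 * ((n + 1) ^ 6 * (2 * m + 1) ^ 6) ≤ (n + 1) ^ 5 * (m ^ 2 * (2 * m + 1) ^ 6) := by
    have e : 3 * ((n + 1) ^ 6 * (2 * m + 1) ^ 6) =
        3 * (n + 1) * ((n + 1) ^ 5 * (2 * m + 1) ^ 6) := by ring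
    have e' : (n + 1) ^ 5 * (m ^ 2 * (2 * m + 1) ^ 6) =
        m ^ 2 * ((n + 1) ^ 5 * (2 * m + 1) ^ 6) := by ring
    rw [e, e']
    exact Nat.mul_le_mul_right _ h1.le
  have c3 : (n + 1) ^ 5 * (m ^ 2 * (2 * m + 1) ^ 6) ≤
      (n + 1) ^ 5 * (108 * (A0 * (k ^ 2 + 25 * k + 157)) ^ 2) := Nat.mul_le_mul_left _ hP
  have c4 : (2 * (A0 * (k ^ 2 + 25 * k + 157))) ^ 2 ≤ (3 * Y) ^ 2 := Nat.pow_le_pow_left hPY 2
  have c5 : (n + 1) ^ 5 * (2 * (A0 * (k ^ 2 + 25 * k + 157))) ^ 2 ≤ (n + 1) ^ 5 * (3 * Y) ^ 2 :=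
    Nat.mul_le_mul_left _ c4
  have e5 : (n + 1) ^ 5 * (108 * (A0 * (k ^ 2 + 25 * k + 157)) ^ 2) =
      27 * ((n + 1) ^ 5 * (2 * (A0 * (k ^ 2 + 25 * k + 157))) ^ 2) := by ring
  have e6 : 81 * (n + 1) ^ 5 * Y ^ 2 = 9 * ((n + 1) ^ 5 * (3 * Y) ^ 2) := by ring
  rw [e6]
  rw [e5] at c3
  omega

theorem key {n m : ℕ} (hn : 1 ≤ n) (h1 : 3 * (n + 1) < m ^ 2) (h2 : m ^ 2 < 3 * (n + 1) + 2 * m) :
    (n * (2 * m + 1) + 4) ^ 6 ≤ 81 * (n + 1) ^ 5 * (3 * (n * (m ^ 2 - n)) + 3) ^ 2 ∧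
      (n * (2 * m + 1)) ^ 4 ≤ 81 * (n + 1) ^ 7 := by
  rcases Nat.lt_or_ge n 40 with hc | hc
  · refine key_small hc ?_ hn h1 h2
    by_contra hm
    nlinarith
  · refine ⟨key_large hc h1 h2, ?_⟩
    have h3 : 3 * m ≤ n + 1 := by nlinarith
    have h4 : (2 * m + 1) ^ 2 ≤ 17 * (n + 1) := by nlinarith
    calc (n * (2 * m + 1)) ^ 4 = n ^ 4 * ((2 * m + 1) ^ 2) ^ 2 := by ring
      _ ≤ (n + 1) ^ 4 * (17 * (n + 1)) ^ 2 :=
          Nat.mul_le_mul (Nat.pow_le_pow_left (Nat.le_succ n) 4) (Nat.pow_le_pow_left h4 2)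
      _ = 289 * (n + 1) ^ 6 := by ring
      _ ≤ 81 * (n + 1) * (n + 1) ^ 6 := Nat.mul_le_mul_right _ (by omega)
      _ = 81 * (n + 1) ^ 7 := by ring

/-- **Row C5.** -/
theorem full {a : ℕ} (ha : 2 ≤ a) {K : ℕ → ℕ → Prop} (H : Inp a K) {b : ℕ}
    (hb : 81 * a ^ 7 ≤ b ^ 4) (t : ℕ) : K b t := by
  obtain ⟨n, rfl⟩ : ∃ n, a = n + 1 := ⟨a - 1, by omega⟩
  obtain ⟨m, h1, h2⟩ := exists_m (n + 1)
  obtain ⟨k1, k2⟩ := key (show 1 ≤ n by omega) h1 h2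
  have hm : 1 ≤ m := by
    rcases Nat.eq_zero_or_pos m with h | h
    · rw [h] at h1; omega
    · exact h
  refine full_of H hm (by omega) ?_ ?_ t
  · exact (Nat.pow_le_pow_iff_left (by norm_num)).1 (k2.trans hb)
  · set x := n * (2 * m + 1) with hx
    set Y := 3 * (n * (m ^ 2 - n)) + 3 with hY
    refine (Nat.pow_le_pow_iff_left (n := 2) (by norm_num)).1 ?_
    calc ((n + 1) * (x + 4) ^ 3) ^ 2 = (n + 1) ^ 2 * (x + 4) ^ 6 := by ring
      _ ≤ (n + 1) ^ 2 * (81 * (n + 1) ^ 5 * Y ^ 2) := Nat.mul_le_mul_left _ k1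
      _ = 81 * (n + 1) ^ 7 * Y ^ 2 := by ring
      _ ≤ b ^ 4 * Y ^ 2 := Nat.mul_le_mul_right _ hb
      _ = (Y * b ^ 2) ^ 2 := by ring

end Vale.Agent.P181.R2.H424
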