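import Vale.Agent.P181.R2.H182.VDefs
import Vale.Agent.P181.R2.H425.W11
import Vale.Agent.P181.R2.H684.W10
import Vale.Agent.P181.R2.H415.Numer3
import Vale.Agent.P181.R2.H415.DimGe
import Vale.Agent.P181.R2.H539.Fac
import Vale.Agent.P181.R2.H822.Y3
import Vale.Agent.P181.R2.H350.PosAll
import Vale.Agent.P181.R2.H350.RichRect
import Vale.Agent.P181.R2.H424.Y5

set_option autoImplicit false

open scoped TensorProduct

namespace Vale.Agent.P181.VT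

open Vale.Agent.P181 Vale.Agent.P181.H280 Vale.Agent.P181.FR Vale.Agent.P181.FR.W11

/-- V7, literal. -/
def V7P : Prop := ∀ r : ℕ, 1 ≤ r → ∃ N0 N1 : ℕ, ∀ k c : ℕ,
  Module.finrank ℂ (Pleth (k * nn r) c (r + 1)) ≤
    (k * nn r * c + 1) ^ ((r + 1) * (r + 1)) *
      plethMult (k * nn r) (3 * (r + 1) * c + N0) (r + 1)
        ((3 * (k * nn r * c) + k * N1) • om (r + 1) (r + 1))

/-- The core: source bound against the rectangle. -/
lemma v9_core {n K N0 N1 a b k c h s : ℕ}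
    (core : ∀ (a b B c S : ℕ) (u g : ℕ → ℕ),
      (n + 3) ∣ B → K ≤ B → K + c ≤ a → B + K ≤ b → (∀ j, u j ≤ g j) →
      ∑ j ∈ Finset.Icc 1 (n + 3), j * u j = c * B →
      ∑ j ∈ Finset.Icc 1 (n + 3), j * g j = a * b →
      u (n + 3) + K * a ≤ g (n + 3) → S ≤ plethMult B c (n + 3) (gw (n + 3) u) →
      S ≤ plethMult b a (n + 3) (gw (n + 3) g))
    (h7 : Module.finrank ℂ (Pleth (k * nn (n + 2)) c (n + 3)) ≤
      (k * nn (n + 2) * c + 1) ^ ((n + 3) * (n + 3)) *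
        plethMult (k * nn (n + 2)) (3 * (n + 3) * c + N0) (n + 3)
          ((3 * (k * nn (n + 2) * c) + k * N1) • om (n + 3) (n + 3)))
    (g : ℕ → ℕ) (hsum : ∑ j ∈ Finset.Icc 1 (n + 3), j * g j = a * b)
    {B : ℕ} (hB : B = k * nn (n + 2)) (hk : (n + 3) ∣ B)
    (c1 : (n + 2) * h ≤ c) (c2 : s * B ≤ h ^ (n + 2))
    (c3 : ∀ L : ℕ, (a + 1).factorial * L ≤ ((B + 1) ^ (n + 2) + (a + 1)) ^ (a + 1) →
      L * (B * c + 1) ^ ((n + 3) * (n + 3) + (n + 3)) ≤ s ^ B)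
    (c4 : (a + 1) * ((b + 1) ^ (n + 2) + a) ^ a ≤ ((B + 1) ^ (n + 2) + (a + 1)) ^ (a + 1))
    (c5 : K ≤ B) (c6 : K + (3 * (n + 3) * c + N0) ≤ a) (c7 : B + K ≤ b)
    (c8 : 3 * (B * c) + k * N1 + K * a ≤ g (n + 3)) :
    plethMult a b (n + 3) (gw (n + 3) g) ≤ plethMult b a (n + 3) (gw (n + 3) g) := by
  rw [← hB] at h7
  set L := plethMult a b (n + 3) (gw (n + 3) g) with hL
  set M := plethMult B (3 * (n + 3) * c + N0) (n + 3)
    ((3 * (B * c) + k * N1) • om (n + 3) (n + 3)) with hM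
  have hfac : a.factorial * L ≤ ((b + 1) ^ (n + 2) + a) ^ a :=
    plethMult_le_fac a b (n + 2) (gw (n + 3) g)
  have hfac2 : (a + 1).factorial * L ≤ ((B + 1) ^ (n + 2) + (a + 1)) ^ (a + 1) := by
    rw [Nat.factorial_succ, Nat.mul_assoc]
    exact (Nat.mul_le_mul_left _ hfac).trans c4
  have hLs := (c3 L hfac2).trans ((dim_ge (b := B) (c := c) (n := n) c1 c2).trans h7)
  have hpos : 0 < (B * c + 1) ^ ((n + 3) * (n + 3)) := by positivity
  have hLM : L ≤ M := by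
    have h1 : (B * c + 1) ^ ((n + 3) * (n + 3)) * L ≤ (B * c + 1) ^ ((n + 3) * (n + 3)) * M := by
      calc (B * c + 1) ^ ((n + 3) * (n + 3)) * L = L * (B * c + 1) ^ ((n + 3) * (n + 3)) :=
            Nat.mul_comm _ _
        _ ≤ L * (B * c + 1) ^ ((n + 3) * (n + 3) + (n + 3)) :=
            Nat.mul_le_mul_left _ (Nat.pow_le_pow_right (Nat.succ_pos _) (Nat.le_add_right _ _))
        _ ≤ _ := hLs
    exact Nat.le_of_mul_le_mul_left h1 hpos
  rcases Nat.eq_zero_or_pos M with hM0 | hM0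
  · have : L = 0 := by omega
    rw [this]
    exact Nat.zero_le _
  have hne : hwSpace ((3 * (B * c) + k * N1) • om (n + 3) (n + 3))
      (plethAct B (3 * (n + 3) * c + N0) (n + 3)) ≠ ⊥ := by
    intro h
    rw [hM, plethMult, h, finrank_bot] at hM0
    exact absurd hM0 (lt_irrefl 0)
  obtain ⟨x, hx, hx0⟩ := Submodule.exists_mem_ne_zero_of_ne_bot hne
  have hU : (n + 3) * (3 * (B * c) + k * N1) = (3 * (n + 3) * c + N0) * B := by
    have h1 : ∑ i, ((3 * (B * c) + k * N1) • om (n + 3) (n + 3)) i =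
        B * (3 * (n + 3) * c + N0) := hw_sum hx hx0
    have h2 : ∑ i, ((3 * (B * c) + k * N1) • om (n + 3) (n + 3)) i =
        ∑ _i : Fin (n + 3), (3 * (B * c) + k * N1) := by
      apply Finset.sum_congr rfl
      intro i _
      rw [Pi.smul_apply, om, if_pos i.2, smul_eq_mul, Nat.mul_one]
    rw [h2, Finset.sum_const, Finset.card_univ, Fintype.card_fin, smul_eq_mul] at h1
    rw [h1, Nat.mul_comm]
  set U := 3 * (B * c) + k * N1 with hUd
  set u : ℕ → ℕ := fun j => if j = n + 3 then U else 0 with hu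
  have hui : u (n + 3) = U := by simp only [hu, if_true]
  have hug : ∀ j, u j ≤ g j := by
    intro j
    by_cases hj : j = n + 3
    · rw [hj, hui]
      have : 0 ≤ K * a := Nat.zero_le _
      omega
    · simp only [hu]
      rw [if_neg hj]
      exact Nat.zero_le _
  have hsu : ∑ j ∈ Finset.Icc 1 (n + 3), j * u j = (3 * (n + 3) * c + N0) * B := by
    have s1 : ∑ j ∈ Finset.Icc 1 (n + 3), j * u j =
        ∑ j ∈ Finset.Icc 1 (n + 3), (if j = n + 3 then (n + 3) * U else 0) := by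
      apply Finset.sum_congr rfl
      intro j _
      simp only [hu]
      by_cases hj : j = n + 3
      · rw [if_pos hj, if_pos hj, hj]
      · rw [if_neg hj, if_neg hj, Nat.mul_zero]
    rw [s1, Finset.sum_ite_eq', if_pos (Finset.mem_Icc.2 ⟨by omega, le_rfl⟩), hU]
  have hgw : gw (n + 3) u = U • om (n + 3) (n + 3) := by
    funext j
    simp only [gw, om, Pi.smul_apply, smul_eq_mul, hu]
    rw [Finset.sum_ite_eq', if_pos (by rw [Finset.mem_Ioc]; exact ⟨j.2, le_rfl⟩), if_pos j.2,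
      Nat.mul_one]
  refine core a b B (3 * (n + 3) * c + N0) L u g hk c5 c6 c7 hug hsu hsum (by rw [hui]; exact c8) ?_
  rw [hgw]
  exact hLM

/-- The loss from `b` to `B` is eaten by one more power. -/
lemma v9_pow {n a b B E : ℕ} (hbB : b ≤ B + E) (haB : a ≤ B) (h3 : 3 ^ (E * (n + 2)) ≤ B + 1) :
    (a + 1) * ((b + 1) ^ (n + 2) + a) ^ a ≤ ((B + 1) ^ (n + 2) + (a + 1)) ^ (a + 1) := by
  set y : ℝ := (B : ℝ) + 1 with hy
  have hy0 : 0 < y := by positivity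
  set t : ℝ := 1 + E / y with ht
  have ht1 : 1 ≤ t := by
    have : 0 ≤ (E : ℝ) / y := by positivity
    linarith
  have h1 : (b : ℝ) + 1 ≤ y * t := by
    have : (b : ℝ) ≤ B + E := by exact_mod_cast hbB
    have h2 : y * t = y + E := by
      rw [ht]
      field_simp
    rw [h2]
    linarith
  have h2 : ((b : ℝ) + 1) ^ (n + 2) + a ≤ t ^ (n + 2) * (y ^ (n + 2) + a) := by
    have e1 : ((b : ℝ) + 1) ^ (n + 2) ≤ (y * t) ^ (n + 2) :=
      pow_le_pow_left₀ (by positivity) h1 _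
    have e2 : (a : ℝ) ≤ t ^ (n + 2) * a := by
      have : (1 : ℝ) ≤ t ^ (n + 2) := one_le_pow₀ ht1
      nlinarith [(Nat.cast_nonneg a : (0 : ℝ) ≤ a)]
    rw [mul_pow] at e1
    nlinarith
  have h4 : (t ^ (n + 2)) ^ a ≤ 3 ^ (E * (n + 2)) := by
    have e1 : t ≤ Real.exp (E / y) := by
      have := Real.add_one_le_exp ((E : ℝ) / y)
      rw [ht]
      linarith
    have e2 : (t ^ (n + 2)) ^ a ≤ (Real.exp (E / y) ^ (n + 2)) ^ a := by
      apply pow_le_pow_left₀ (by positivity)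
      exact pow_le_pow_left₀ (by positivity) e1 _
    have e3 : (Real.exp (E / y) ^ (n + 2)) ^ a ≤ Real.exp 1 ^ (E * (n + 2)) := by
      rw [← pow_mul, ← Real.exp_nat_mul, ← Real.exp_nat_mul]
      apply Real.exp_le_exp.2
      push_cast
      have e4 : (a : ℝ) ≤ y := by
        have : (a : ℝ) ≤ B := by exact_mod_cast haB
        rw [hy]; linarith
      have e5 : (a : ℝ) * (E / y) ≤ E := by
        rw [mul_div_assoc', div_le_iff₀ hy0, mul_comm]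
        exact mul_le_mul_of_nonneg_left e4 (Nat.cast_nonneg E)
      have e6 : (0 : ℝ) ≤ (n : ℝ) + 2 := by positivity
      nlinarith [mul_le_mul_of_nonneg_left e5 e6]
    have e7 : Real.exp 1 ^ (E * (n + 2)) ≤ 3 ^ (E * (n + 2)) := by
      apply pow_le_pow_left₀ (Real.exp_pos 1).le
      linarith [Real.exp_one_lt_d9]
    exact e2.trans (e3.trans e7)
  have h5 : (((b : ℝ) + 1) ^ (n + 2) + a) ^ a ≤
      3 ^ (E * (n + 2)) * (y ^ (n + 2) + (a + 1)) ^ a := by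
    calc (((b : ℝ) + 1) ^ (n + 2) + a) ^ a ≤ (t ^ (n + 2) * (y ^ (n + 2) + a)) ^ a :=
          pow_le_pow_left₀ (by positivity) h2 _
      _ = (t ^ (n + 2)) ^ a * (y ^ (n + 2) + a) ^ a := mul_pow _ _ _
      _ ≤ 3 ^ (E * (n + 2)) * (y ^ (n + 2) + (a + 1)) ^ a := by
        apply mul_le_mul h4 _ (by positivity) (by positivity)
        apply pow_le_pow_left₀ (by positivity)
        linarith
  have h6 : ((a : ℝ) + 1) * 3 ^ (E * (n + 2)) ≤ y ^ (n + 2) + (a + 1) := by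
    have e1 : (3 : ℝ) ^ (E * (n + 2)) ≤ y := by
      rw [hy]
      exact_mod_cast h3
    have e2 : (a : ℝ) + 1 ≤ y := by
      have : (a : ℝ) ≤ B := by exact_mod_cast haB
      rw [hy]; linarith
    have e3 : y * y ≤ y ^ (n + 2) := by
      have hy1 : 1 ≤ y := by
        rw [hy]
        have : (0 : ℝ) ≤ B := Nat.cast_nonneg B
        linarith
      calc y * y = y ^ 2 := by ring
        _ ≤ y ^ (n + 2) := pow_le_pow_right₀ hy1 (by omega)
    have e4 : ((a : ℝ) + 1) * 3 ^ (E * (n + 2)) ≤ y * y :=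
      mul_le_mul e2 e1 (by positivity) hy0.le
    have e5 : (0 : ℝ) ≤ (a : ℝ) + 1 := by positivity
    linarith
  have h7 : ((((a + 1) * ((b + 1) ^ (n + 2) + a) ^ a : ℕ)) : ℝ) ≤
      ((((B + 1) ^ (n + 2) + (a + 1)) ^ (a + 1) : ℕ) : ℝ) := by
    push_cast
    calc ((a : ℝ) + 1) * (((b : ℝ) + 1) ^ (n + 2) + a) ^ a
        ≤ ((a : ℝ) + 1) * (3 ^ (E * (n + 2)) * (y ^ (n + 2) + (a + 1)) ^ a) :=
          mul_le_mul_of_nonneg_left h5 (by positivity)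
      _ = (((a : ℝ) + 1) * 3 ^ (E * (n + 2))) * (y ^ (n + 2) + (a + 1)) ^ a := by ring
      _ ≤ (y ^ (n + 2) + (a + 1)) * (y ^ (n + 2) + (a + 1)) ^ a :=
          mul_le_mul_of_nonneg_right h6 (by positivity)
      _ = ((B + 1 : ℝ) ^ (n + 2) + (a + 1)) ^ (a + 1) := by
          rw [pow_succ' _ a]
  exact_mod_cast h7

lemma v9_big {C2 κ a b g : ℝ} (hC2 : 0 < C2) (hκ : 0 < κ) (ha1 : 1 ≤ a)
    (h : (C2 + C2 / κ) * a ≤ b) (hg : κ * (a * b) ≤ g) :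
    C2 * a ≤ b ∧ C2 * a ^ ((3 : ℝ) / 2 + 1 / 4) ≤ g := by
  have ha0 : 0 ≤ a := by linarith
  have h1 : 0 ≤ C2 / κ * a := by positivity
  have h2 : 0 ≤ C2 * a := by positivity
  have h0 : (C2 + C2 / κ) * a = C2 * a + C2 / κ * a := by ring
  refine ⟨by linarith, le_trans ?_ hg⟩
  have e1 : a ^ ((3 : ℝ) / 2 + 1 / 4) ≤ a ^ (2 : ℝ) :=
    Real.rpow_le_rpow_of_exponent_le ha1 (by norm_num)
  have e2 : a ^ (2 : ℝ) = a * a := by
    rw [show (2 : ℝ) = ((2 : ℕ) : ℝ) by norm_num, Real.rpow_natCast]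
    ring
  have e3 : C2 / κ * a ≤ b := by linarith
  have e4 : C2 * a ≤ κ * b := by
    have := mul_le_mul_of_nonneg_left e3 hκ.le
    have h5 : κ * (C2 / κ * a) = C2 * a := by
      field_simp
    linarith
  calc C2 * a ^ ((3 : ℝ) / 2 + 1 / 4) ≤ C2 * (a * a) := by
        rw [← e2]
        exact mul_le_mul_of_nonneg_left e1 hC2.le
    _ = a * (C2 * a) := by ring
    _ ≤ a * (κ * b) := mul_le_mul_of_nonneg_left e4 ha0
    _ = κ * (a * b) := by ring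

lemma v9_c1 {n ρ a c : ℝ} (hn : 0 ≤ n) (ha : 0 ≤ a) (hc : c ≤ 2 * ρ * a)
    (h1 : ρ * (12 * (n + 3)) ≤ 1) : 3 * (n + 3) * c * 2 ≤ a := by
  have h2 : 3 * (n + 3) * 2 * c ≤ 3 * (n + 3) * 2 * (2 * ρ * a) :=
    mul_le_mul_of_nonneg_left hc (by positivity)
  have h3 : 3 * (n + 3) * 2 * (2 * ρ * a) = ρ * (12 * (n + 3)) * a := by ring
  have h4 : ρ * (12 * (n + 3)) * a ≤ 1 * a := mul_le_mul_of_nonneg_right h1 ha
  have h5 : 3 * (n + 3) * c * 2 = 3 * (n + 3) * 2 * c := by ring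
  linarith

lemma v9_c2 {n ρ κ a c M : ℝ} (hn : 0 ≤ n) (ha : 0 ≤ a) (hρ : 0 < ρ) (hc : c ≤ 2 * ρ * a)
    (h1 : ρ * (12 * (n + 3)) ≤ κ) (h2 : 2 * M ≤ κ * a) : 3 * c + M ≤ κ * a := by
  have h3 : 3 * c * 2 ≤ ρ * 12 * a := by
    have : 3 * 2 * c ≤ 3 * 2 * (2 * ρ * a) := mul_le_mul_of_nonneg_left hc (by norm_num)
    have e : 3 * 2 * (2 * ρ * a) = ρ * 12 * a := by ring
    linarith
  have h4 : ρ * 12 ≤ κ := by
    have : 0 ≤ ρ * (12 * (n + 2)) := by positivity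
    have e : ρ * (12 * (n + 3)) = ρ * 12 + ρ * (12 * (n + 2)) := by ring
    linarith
  have h5 : ρ * 12 * a ≤ κ * a := mul_le_mul_of_nonneg_right h4 ha
  linarith

lemma v9_last {κ a b B c k N1 K3 : ℝ} (hBb : B ≤ b) (hkb : k ≤ b) (hab : a ≤ b) (hb : 0 ≤ b)
    (hc : 0 ≤ c) (hN : 0 ≤ N1) (hK : 0 ≤ K3) (h : 3 * c + (N1 + K3) ≤ κ * a) :
    3 * (B * c) + k * N1 + K3 * a ≤ κ * (a * b) := by
  have f1 : B * c ≤ b * c := mul_le_mul_of_nonneg_right hBb hc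
  have f2 : k * N1 ≤ b * N1 := mul_le_mul_of_nonneg_right hkb hN
  have f3 : K3 * a ≤ K3 * b := mul_le_mul_of_nonneg_left hab hK
  have f4 : (3 * c + (N1 + K3)) * b ≤ κ * a * b := mul_le_mul_of_nonneg_right h hb
  have e1 : (3 * c + (N1 + K3)) * b = 3 * (b * c) + b * N1 + K3 * b := by ring
  have e2 : κ * a * b = κ * (a * b) := by ring
  linarith

lemma v9_B {δ a b B E : ℝ} (hδ : 0 < δ) (ha : 0 ≤ a) (h1 : 2 * (E + 1) + δ ≤ δ * a)
    (h2 : (1 + δ) * a ≤ b) (h3 : b ≤ B + E) :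
    (1 + δ / 2) * (a + 1) ≤ B ∧ a + 1 ≤ B := by
  have e1 : (1 + δ) * a = a + δ * a := by ring
  have e2 : (1 + δ / 2) * (a + 1) = a + 1 + δ * a / 2 + δ / 2 := by ring
  have e3 : 0 ≤ δ * a := by positivity
  constructor
  · linarith
  · linarith

lemma v9_d1 {a η ρ c : ℝ} (ha : 1 ≤ a) (hρ : 0 < ρ) (h1 : (a + 1) ^ (-η) ≤ ρ)
    (h2 : c ≤ (a + 1) ^ (1 - η)) : c ≤ 2 * ρ * a := by
  have h3 : (a + 1) ^ (1 - η) = (a + 1) * (a + 1) ^ (-η) := by
    rw [show (1 - η : ℝ) = 1 + (-η) by ring, Real.rpow_add (by linarith), Real.rpow_one]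
  have h4 : (a + 1) * (a + 1) ^ (-η) ≤ (a + 1) * ρ :=
    mul_le_mul_of_nonneg_left h1 (by linarith)
  have h5 : (a + 1) * ρ ≤ (2 * a) * ρ := mul_le_mul_of_nonneg_right (by linarith) hρ.le
  have h6 : (2 * a) * ρ = 2 * ρ * a := by ring
  linarith

/-- The middle range. -/
lemma v9_mid (h7 : V7P) (n : ℕ) {δ κ : ℝ} (hδ : 0 < δ) (hκ : 0 < κ) (K : ℕ) :
    ∃ A : ℕ, ∀ (a b : ℕ) (g : ℕ → ℕ), A ≤ a → (1 + δ) * a ≤ b → (b : ℝ) ≤ K * a →
    ∑ j ∈ Finset.Icc 1 (n + 3), j * g j = a * b → κ * (a * b) ≤ g (n + 3) →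
    plethMult a b (n + 3) (gw (n + 3) g) ≤ plethMult b a (n + 3) (gw (n + 3) g) := by
  obtain ⟨K3, hcore⟩ := H822Y.gap_core_of (m := n + 3) (i := n + 3) (by omega) le_rfl
    (pos_all (by omega) le_rfl)
  obtain ⟨N0, N1, h7'⟩ := h7 (n + 2) (by omega)
  obtain ⟨η, hη0, hη1, A1, hA1⟩ := numer3 n (δ := δ / 2) (by positivity) K
  obtain ⟨P, hP⟩ : ∃ P, P = (n + 3) * nn (n + 2) := ⟨_, rfl⟩
  have hnn : 1 ≤ nn (n + 2) := by unfold nn; omega
  have hPp : 0 < P := by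
    rw [hP]
    exact Nat.mul_pos (by omega) hnn
  obtain ⟨E, hE⟩ : ∃ E, E = K3 + P := ⟨_, rfl⟩
  obtain ⟨ρ, hρ⟩ : ∃ ρ : ℝ, ρ = min κ 1 / (12 * (n + 3)) := ⟨_, rfl⟩
  have hn0 : (0 : ℝ) ≤ n := Nat.cast_nonneg n
  have hρ0 : 0 < ρ := by
    rw [hρ]
    have : 0 < min κ 1 := lt_min hκ one_pos
    positivity
  have hρκ : ρ * (12 * (n + 3)) ≤ κ := by
    rw [hρ, div_mul_cancel₀ _ (by positivity)]
    exact min_le_left _ _
  have hρ1 : ρ * (12 * (n + 3)) ≤ 1 := by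
    rw [hρ, div_mul_cancel₀ _ (by positivity)]
    exact min_le_right _ _
  obtain ⟨A2, hA2⟩ : ∃ A2 : ℕ, ∀ a : ℕ, A2 ≤ a → ((a : ℝ) + 1) ^ (-η) ≤ ρ := by
    have h1 := (tendsto_rpow_neg_atTop hη0).eventually (ge_mem_nhds hρ0)
    obtain ⟨X, hX⟩ := Filter.eventually_atTop.1 h1
    refine ⟨⌈X⌉₊, fun a ha => hX _ ?_⟩
    have : X ≤ a := (Nat.le_ceil X).trans (by exact_mod_cast ha)
    linarith
  obtain ⟨Z1, hZ1⟩ := exists_nat_ge ((2 * ((E : ℝ) + 1) + δ) / δ)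
  obtain ⟨Z2, hZ2⟩ := exists_nat_ge (2 * ((N1 : ℝ) + K3) / κ)
  obtain ⟨Y, hY⟩ : ∃ Y : ℕ, Y = 3 ^ (E * (n + 2)) := ⟨_, rfl⟩
  refine ⟨A1 + A2 + Y + Z1 + Z2 + 2 * (K3 + N0) + 2, ?_⟩
  intro a b g hA hab hbK hsg hlast
  have ha1 : 1 ≤ a := by omega
  have ha1R : (1 : ℝ) ≤ a := by exact_mod_cast ha1
  have haR0 : (0 : ℝ) ≤ a := by linarith
  have hb0 : (0 : ℝ) ≤ b := Nat.cast_nonneg b
  obtain ⟨k0, hk0⟩ : ∃ k0, k0 = (b - K3) / P := ⟨_, rfl⟩
  obtain ⟨k, hk⟩ : ∃ k, k = (n + 3) * k0 := ⟨_, rfl⟩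
  obtain ⟨B, hB⟩ : ∃ B, B = k * nn (n + 2) := ⟨_, rfl⟩
  have hBP : B = P * k0 := by rw [hB, hk, hP]; ring
  have hZa1 : 2 * ((E : ℝ) + 1) + δ ≤ δ * a := by
    have h1 : (2 * ((E : ℝ) + 1) + δ) / δ ≤ a := hZ1.trans (by exact_mod_cast (by omega : Z1 ≤ a))
    rw [div_le_iff₀ hδ] at h1
    linarith
  have hZa2 : 2 * ((N1 : ℝ) + K3) ≤ κ * a := by
    have h1 : 2 * ((N1 : ℝ) + K3) / κ ≤ a := hZ2.trans (by exact_mod_cast (by omega : Z2 ≤ a))
    rw [div_le_iff₀ hκ] at h1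
    linarith
  have hab2 : (a : ℝ) ≤ b := by
    have : 0 ≤ δ * (a : ℝ) := by positivity
    have e : (1 + δ) * (a : ℝ) = a + δ * a := by ring
    linarith
  have hab3 : a ≤ b := by exact_mod_cast hab2
  have hB1 : B ≤ b - K3 := by
    rw [hBP, hk0]
    exact Nat.mul_div_le _ _
  have hB2 : b - K3 < B + P := by
    have := Nat.lt_mul_div_succ (b - K3) hPp
    rw [← hk0, Nat.mul_add, Nat.mul_one, ← hBP] at this
    exact this
  have hbBE : b ≤ B + E := by omega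
  obtain ⟨hBa, haB1⟩ := v9_B hδ haR0 hZa1 hab (by exact_mod_cast hbBE : (b : ℝ) ≤ B + E)
  have haB : a + 1 ≤ B := by exact_mod_cast haB1
  have hBK : B ≤ K * (a + 1) := by
    have h1 : b ≤ K * a := by exact_mod_cast hbK
    have h2 : K * (a + 1) = K * a + K := by ring
    omega
  obtain ⟨c, h, s, d1, d2, d3, d4, d5⟩ := hA1 (a + 1) B (by omega) (by push_cast; exact hBa) hBK
  have hc : (c : ℝ) ≤ 2 * ρ * a :=
    v9_d1 ha1R hρ0 (hA2 a (by omega)) (by push_cast at d1; exact d1)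
  have hc6 : K3 + (3 * (n + 3) * c + N0) ≤ a := by
    have h2 : 3 * (n + 3) * c * 2 ≤ a := by exact_mod_cast v9_c1 hn0 haR0 hc hρ1
    omega
  have h3c : 3 * (c : ℝ) + (N1 + K3) ≤ κ * a := v9_c2 hn0 haR0 hρ0 hc hρκ hZa2
  have hkB : k ≤ B := by
    rw [hB]
    exact Nat.le_mul_of_pos_right _ hnn
  refine v9_core hcore (h7' k c) g hsg hB ⟨nn (n + 2) * k0, by rw [hBP, hP]; ring⟩ d3 d4 d5
    (v9_pow hbBE (by omega) (by omega)) (by omega) hc6 (by omega) ?_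
  have h8 : ((3 * (B * c) + k * N1 + K3 * a : ℕ) : ℝ) ≤ g (n + 3) := by
    refine le_trans ?_ hlast
    push_cast
    exact v9_last (by exact_mod_cast (by omega : B ≤ b)) (by exact_mod_cast (by omega : k ≤ b))
      hab2 hb0 (Nat.cast_nonneg c) (Nat.cast_nonneg N1) (Nat.cast_nonneg K3) h3c
  exact_mod_cast h8

/-- Row V9. -/
theorem v9_of (h7 : V7P) : ∀ (n : ℕ) {δ κ : ℝ}, 0 < δ → 0 < κ → ∃ A : ℕ, ∀ (a b : ℕ)
    (lam : Fin (n + 3) → ℕ), A ≤ a → (1 + δ) * a ≤ b → κ * (a * b) ≤ lam (Fin.last _) →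
    plethMult a b (n + 3) lam ≤ plethMult b a (n + 3) lam := by
  intro n δ κ hδ hκ
  obtain ⟨C2, hC2, hpure⟩ := gap_pure_of (m := n + 3) (i := n + 3) (by omega) le_rfl
    (ε := 1 / 4) (by norm_num)
    (H822Y.gap_core_of (by omega) le_rfl (pos_all (by omega) le_rfl))
    (rich_rect (by omega) le_rfl)
  obtain ⟨K, hKC⟩ := exists_nat_ge (C2 + C2 / κ)
  obtain ⟨A, hA⟩ := v9_mid h7 n hδ hκ K
  refine ⟨A + 1, ?_⟩
  intro a b lam hAa hab hlast
  by_cases hz : plethMult a b (n + 3) lam = 0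
  · rw [hz]
    exact Nat.zero_le _
  have hne : hwSpace lam (plethAct a b (n + 3)) ≠ ⊥ := by
    intro h
    apply hz
    rw [plethMult, h, finrank_bot]
  obtain ⟨x, hx, hx0⟩ := Submodule.exists_mem_ne_zero_of_ne_bot hne
  have hanti := hw_antitone hx hx0
  have hsum : ∑ i, lam i = a * b := hw_sum hx hx0
  have hsg : ∑ j ∈ Finset.Icc 1 (n + 3), j * gap lam j = a * b := by
    rw [sum_gap hanti, hsum]
  have hgl : gap lam (n + 3) = lam (Fin.last _) := by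
    have h1 := ext_eq hanti (n + 2) (by omega)
    have h2 : Finset.Ioc (n + 2) (n + 3) = {n + 3} := by
      ext j
      rw [Finset.mem_Ioc, Finset.mem_singleton]
      omega
    rw [h2, Finset.sum_singleton] at h1
    rw [h1, ext, dif_pos (by omega)]
    rfl
  rw [← hgl] at hlast
  have ha1R : (1 : ℝ) ≤ a := by exact_mod_cast (by omega : 1 ≤ a)
  rw [← gw_gap hanti]
  by_cases hbig : (C2 + C2 / κ) * a ≤ b
  · obtain ⟨h1, h2⟩ := v9_big hC2 hκ ha1R hbig hlast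
    exact hpure a b (gap lam) h1 hsg h2
  · push Not at hbig
    refine hA a b (gap lam) (by omega) hab ?_ hsg hlast
    have := mul_le_mul_of_nonneg_right hKC (by linarith : (0 : ℝ) ≤ a)
    linarith

end Vale.Agent.P181.VT
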