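import Vale.Agent.P181.R2.H959.WDefs
import Vale.Agent.P181.R2.H959.FMul
import Vale.Agent.P181.R2.H182.PtMul
import Vale.Agent.P181.R2.H959.FPow
import Vale.Agent.P181.R2.H207.FinalOf

set_option autoImplicit false

namespace Vale.Agent.P181.FR

open Vale.Agent.P181 Vale.Agent.P181.H280

/-- Splitting of the gaps: `g = u + (4 c R at i) + v`. -/
lemma w13_split {m i a b c R : ℕ} (hi : 1 ≤ i) (him : i ≤ m) (g : ℕ → ℕ)
    (hs : ∑ j ∈ Finset.Icc 1 m, j * g j = a * b)
    (h2c : 2 * c ≤ a) (ha : 0 < a) (hR : 3 * (m + 1) * a ≤ 2 * i * R) (hb4 : 4 * i * R ≤ b)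
    (hb : 6 * (m + 1) * a + m * (m + 1) ≤ b) (hg : 4 * c * R + b ≤ g i) :
    ∃ u v : ℕ → ℕ, (∀ j ∈ Finset.Icc 1 m, g j = u j + (if j = i then 4 * c * R else 0) + v j) ∧
      ∑ j ∈ Finset.Icc 1 m, j * u j = (a - 2 * c) * (2 * i * R) ∧
      ∑ j ∈ Finset.Icc 1 m, j * v j = a * (b - 2 * i * R) ∧
      3 * (m + 1) * (a - 2 * c) ≤ u i ∧ 3 * (m + 1) * a ≤ v i := by
  classical
  obtain ⟨e, rfl⟩ : ∃ e, a = e + 2 * c := ⟨a - 2 * c, by omega⟩
  obtain ⟨g', hg'⟩ : ∃ g', g i = g' + 4 * c * R := ⟨g i - 4 * c * R, by omega⟩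
  have hg'b : b ≤ g' := by omega
  obtain ⟨b', rfl⟩ : ∃ b', b = b' + 4 * i * R := ⟨b - 4 * i * R, by omega⟩
  have hsub : e + 2 * c - 2 * c = e := by omega
  have hsub2 : b' + 4 * i * R - 2 * i * R = b' + 2 * i * R := by
    have : 4 * i * R = 2 * i * R + 2 * i * R := by ring
    omega
  rw [hsub, hsub2]
  set S := Finset.Icc 1 m with hS
  have hiS : i ∈ S := by
    rw [hS, Finset.mem_Icc]
    exact ⟨hi, him⟩
  set S' := S.erase i with hS'
  have split : ∀ f : ℕ → ℕ, ∑ j ∈ S, f j = f i + ∑ j ∈ S', f j := fun f =>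
    (Finset.add_sum_erase S f hiS).symm
  -- `D = a b - 4 i c R`
  obtain ⟨D, hD⟩ : ∃ D, D + 4 * i * c * R = (e + 2 * c) * (b' + 4 * i * R) := by
    refine ⟨(e + 2 * c) * b' + e * (4 * i * R) + 4 * i * c * R, by ring⟩
  have hDval : D = (e + 2 * c) * b' + e * (4 * i * R) + 4 * i * c * R := by
    have : D + 4 * i * c * R = ((e + 2 * c) * b' + e * (4 * i * R) + 4 * i * c * R) +
        4 * i * c * R := by rw [hD]; ring
    omega
  set Sg := ∑ j ∈ S', j * g j with hSg
  have hSgD : i * g' + Sg = D := by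
    have h1 := split (fun j => j * g j)
    rw [hs, ← hSg, hg', ← hD] at h1
    have h2 : i * (g' + 4 * c * R) = i * g' + 4 * i * c * R := by ring
    omega
  have hbpos : 0 < b' + 4 * i * R := by
    have : 0 < 6 * (m + 1) * (e + 2 * c) := by positivity
    omega
  have hDpos : 0 < D := by
    have : 0 < g' := by omega
    have h3 : 0 < i * g' := by positivity
    omega
  have hiD : 0 < i * D := by positivity
  set T := 2 * i * R * e with hT
  have hTD : 2 * T ≤ D := by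
    rw [hT, hDval]
    have : 2 * (2 * i * R * e) = e * (4 * i * R) := by ring
    omega
  set w : ℕ → ℕ := fun j => (T * g j) / (i * D) with hw
  set W := ∑ j ∈ S', j * w j with hW
  set J := ∑ j ∈ S', j with hJ
  have hJ2 : 2 * J ≤ m * (m + 1) := by
    have h1 : J ≤ ∑ j ∈ S, j := Finset.sum_le_sum_of_subset (Finset.erase_subset i S)
    have h2 : ∑ j ∈ S, j ≤ ∑ j ∈ Finset.range (m + 1), j := by
      apply Finset.sum_le_sum_of_subset
      intro j hj
      rw [hS, Finset.mem_Icc] at hj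
      rw [Finset.mem_range]
      omega
    have h3 := Finset.sum_range_id_mul_two (m + 1)
    simp only [Nat.add_sub_cancel] at h3
    have h4 : (m + 1) * m = m * (m + 1) := by ring
    omega
  have hwle : ∀ j, i * D * w j ≤ T * g j := fun j => Nat.mul_div_le (T * g j) (i * D)
  have hwge : ∀ j, T * g j ≤ i * D * (w j + 1) := fun j =>
    (Nat.lt_mul_div_succ (T * g j) hiD).le
  have hA : i * D * W ≤ T * Sg := by
    rw [hW, hSg, Finset.mul_sum, Finset.mul_sum]
    apply Finset.sum_le_sum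
    intro j _
    have h1 := Nat.mul_le_mul_left j (hwle j)
    calc i * D * (j * w j) = j * (i * D * w j) := by ring
      _ ≤ j * (T * g j) := h1
      _ = T * (j * g j) := by ring
  have hB : T * Sg ≤ i * D * (W + J) := by
    rw [hW, hSg, hJ, ← Finset.sum_add_distrib, Finset.mul_sum, Finset.mul_sum]
    apply Finset.sum_le_sum
    intro j _
    have h1 := Nat.mul_le_mul_left j (hwge j)
    calc T * (j * g j) = j * (T * g j) := by ring
      _ ≤ j * (i * D * (w j + 1)) := h1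
      _ = i * D * (j * w j + j) := by ring
  have hTe : T * D = i * D * (2 * R * e) := by
    rw [hT]; ring
  have hWle : W ≤ 2 * R * e := by
    have h1 : i * D * W ≤ i * D * (2 * R * e) := by
      rw [← hTe]
      exact hA.trans (Nat.mul_le_mul_left T (by omega))
    exact Nat.le_of_mul_le_mul_left h1 hiD
  obtain ⟨x, hx⟩ : ∃ x, 2 * R * e = W + x := ⟨2 * R * e - W, by omega⟩
  have hTsum : T * (i * g') + T * Sg = i * D * W + i * D * x := by
    rw [← Nat.mul_add, hSgD, hTe, hx]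
    ring
  have hx1 : T * g' ≤ D * x := by
    have h1 : i * (T * g') ≤ i * (D * x) := by
      have h2 : i * (T * g') = T * (i * g') := by ring
      have h3 : i * (D * x) = i * D * x := by ring
      omega
    exact Nat.le_of_mul_le_mul_left h1 hi
  have hx2 : D * x ≤ T * g' + D * J := by
    have h1 : i * (D * x) ≤ i * (T * g' + D * J) := by
      have h2 : i * (T * g' + D * J) = T * (i * g') + i * D * J := by ring
      have h3 : i * (D * x) = i * D * x := by ring
      have h4 : i * D * (W + J) = i * D * W + i * D * J := by ring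
      omega
    exact Nat.le_of_mul_le_mul_left h1 hi
  -- upper bound of `x`
  have hx3 : 2 * x ≤ g' + m * (m + 1) := by
    have h1 : D * (2 * x) ≤ D * (g' + m * (m + 1)) := by
      have h2 : 2 * (T * g') ≤ D * g' := by
        have := Nat.mul_le_mul_right g' hTD
        have h3 : 2 * T * g' = 2 * (T * g') := by ring
        omega
      have h3 : D * (2 * J) ≤ D * (m * (m + 1)) := Nat.mul_le_mul_left D hJ2
      have h4 : D * (2 * x) = 2 * (D * x) := by ring
      have h5 : D * (2 * J) = 2 * (D * J) := by ring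
      have h6 : D * (g' + m * (m + 1)) = D * g' + D * (m * (m + 1)) := by ring
      omega
    exact Nat.le_of_mul_le_mul_left h1 hDpos
  -- lower bound of `x`
  have hx4 : 3 * (m + 1) * e ≤ x := by
    have h1 : ((e + 2 * c) * (b' + 4 * i * R)) * (3 * (m + 1) * e) ≤
        ((e + 2 * c) * (b' + 4 * i * R)) * x := by
      calc ((e + 2 * c) * (b' + 4 * i * R)) * (3 * (m + 1) * e)
          = (3 * (m + 1) * (e + 2 * c)) * (e * (b' + 4 * i * R)) := by ring
        _ ≤ (2 * i * R) * (e * (b' + 4 * i * R)) := Nat.mul_le_mul_right _ hR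
        _ = T * (b' + 4 * i * R) := by rw [hT]; ring
        _ ≤ T * g' := Nat.mul_le_mul_left T hg'b
        _ ≤ D * x := hx1
        _ ≤ ((e + 2 * c) * (b' + 4 * i * R)) * x := Nat.mul_le_mul_right x (by omega)
    exact Nat.le_of_mul_le_mul_left h1 (by positivity)
  have hwg : ∀ j, i * w j ≤ g j := by
    intro j
    have h1 : D * (i * w j) ≤ D * g j := by
      calc D * (i * w j) = i * D * w j := by ring
        _ ≤ T * g j := hwle j
        _ ≤ D * g j := Nat.mul_le_mul_right (g j) (by omega)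
    exact Nat.le_of_mul_le_mul_left h1 hDpos
  refine ⟨fun j => if j = i then x else i * w j, fun j => if j = i then g' - x else g j - i * w j,
    ?_, ?_, ?_, ?_, ?_⟩
  · intro j _
    simp only
    by_cases hji : j = i
    · rw [if_pos hji, if_pos hji, if_pos hji, hji, hg']
      omega
    · rw [if_neg hji, if_neg hji, if_neg hji]
      have := hwg j
      omega
  · rw [split]
    simp only [if_true]
    have h1 : ∑ j ∈ S', j * (if j = i then x else i * w j) = i * W := by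
      rw [hW, Finset.mul_sum]
      apply Finset.sum_congr rfl
      intro j hj
      rw [if_neg (Finset.ne_of_mem_erase hj)]
      ring
    rw [h1]
    calc i * x + i * W = i * (W + x) := by ring
      _ = i * (2 * R * e) := by rw [hx]
      _ = e * (2 * i * R) := by ring
  · rw [split]
    simp only [if_true]
    have h1 : ∑ j ∈ S', j * (if j = i then g' - x else g j - i * w j) + i * W = Sg := by
      rw [hW, hSg, Finset.mul_sum, ← Finset.sum_add_distrib]
      apply Finset.sum_congr rfl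
      intro j hj
      rw [if_neg (Finset.ne_of_mem_erase hj)]
      obtain ⟨y, hy⟩ : ∃ y, g j = i * w j + y := ⟨g j - i * w j, by have := hwg j; omega⟩
      have hy2 : g j - i * w j = y := by omega
      rw [hy2, hy]
      ring
    obtain ⟨y, hy⟩ : ∃ y, g' = x + y := ⟨g' - x, by omega⟩
    have hy2 : g' - x = y := by omega
    rw [hy2]
    set Z := ∑ j ∈ S', j * (if j = i then y else g j - i * w j) with hZ
    have h1' : Z + i * W = Sg := by
      rw [← h1, hy2]
    have h2 : i * y + i * x + Z + i * W = D := by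
      rw [← hSgD, ← h1', hy]
      ring
    have h3 : i * x + i * W = i * (2 * R * e) := by
      rw [hx]; ring
    have h4 : D + 4 * i * c * R = (e + 2 * c) * (b' + 2 * i * R) + i * (2 * R * e) +
        4 * i * c * R := by
      rw [hD]
      ring
    omega
  · simp only [if_true]
    exact hx4
  · simp only [if_true]
    have h1 : 3 * (m + 1) * (e + 2 * c) * 2 = 6 * (m + 1) * (e + 2 * c) := by ring
    omega

/-- The integer form. -/
lemma w13_int {m i : ℕ} (hi : 3 ≤ i) (him : i ≤ m) {a0 N : ℕ}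
    (pos_all : ∀ (a B : ℕ) (g : ℕ → ℕ), a0 ≤ a → 3 * (m + 1) * a ≤ g i →
      ∑ j ∈ Finset.Icc 1 m, j * g j = a * B → Pos B a m (gw m g))
    (rich_rect : ∀ c h R s : ℕ, N * (h + 1) ≤ c → R * s ≤ h * h →
      s ^ R ≤ plethMult (2 * i * R) (2 * c) m ((4 * c * R) • om m i))
    {a b q s h c R : ℕ} (g : ℕ → ℕ) (hs : ∑ j ∈ Finset.Icc 1 m, j * g j = a * b)
    (hq : 1 ≤ q) (hR : R = 2 * m * q * a) (has : a ≤ s ^ q) (hRs : R * s ≤ h * h)
    (hc : N * (h + 1) ≤ c) (ha0 : a0 + 2 * c ≤ a) (hb8 : 8 * i * m * q * a ≤ b)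
    (hb6 : 6 * (m + 1) * a + m * (m + 1) ≤ b) (hg : 4 * c * R + b ≤ g i) (hab : b + 1 ≤ a ^ 2) :
    plethMult a b m (gw m g) ≤ plethMult b a m (gw m g) := by
  have ha : 0 < a := by
    by_contra h0
    have : a = 0 := by omega
    rw [this] at hab
    simp at hab
  have hR1 : 3 * (m + 1) * a ≤ 2 * i * R := by
    rw [hR]
    have h1 : 3 * (m + 1) ≤ 2 * i * (2 * m * q) := by
      have h2 : 3 * 1 * (m * 1) ≤ i * 1 * (m * q) := by gcongr
      have h3 : 2 * i * (2 * m * q) = 4 * (i * 1 * (m * q)) := by ring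
      omega
    calc 3 * (m + 1) * a ≤ 2 * i * (2 * m * q) * a := Nat.mul_le_mul_right a h1
      _ = 2 * i * (2 * m * q * a) := by ring
  have hb4 : 4 * i * R ≤ b := by
    rw [hR]
    calc 4 * i * (2 * m * q * a) = 8 * i * m * q * a := by ring
      _ ≤ b := hb8
  obtain ⟨u, v, hguv, hu, hv, hui, hvi⟩ := w13_split (by omega) him g hs (by omega) ha hR1 hb4
    hb6 hg
  have pu := pos_all (a - 2 * c) (2 * i * R) u (by omega) hui hu
  have pv := pos_all a (b - 2 * i * R) v (by omega) hvi hv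
  have hgw : gw m g = gw m u + (4 * c * R) • om m i + gw m v := by
    funext k
    simp only [gw, om, Pi.add_apply, Pi.smul_apply, smul_eq_mul]
    have h1 : ∑ j ∈ Finset.Ioc (k : ℕ) m, g j = ∑ j ∈ Finset.Ioc (k : ℕ) m,
        (u j + (if j = i then 4 * c * R else 0) + v j) := by
      apply Finset.sum_congr rfl
      intro j hj
      apply hguv
      rw [Finset.mem_Ioc] at hj
      rw [Finset.mem_Icc]
      omega
    rw [h1, Finset.sum_add_distrib, Finset.sum_add_distrib, Finset.sum_ite_eq']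
    congr 2
    by_cases hki : (k : ℕ) < i
    · rw [if_pos (by rw [Finset.mem_Ioc]; exact ⟨hki, him⟩), if_pos hki, Nat.mul_one]
    · rw [if_neg (by rw [Finset.mem_Ioc]; omega), if_neg hki, Nat.mul_zero]
  have e1 : a - 2 * c + 2 * c = a := by omega
  have e2 : 2 * i * R + (b - 2 * i * R) = b := by
    have : 4 * i * R = 2 * i * R + 2 * i * R := by ring
    omega
  have hpow : (b + 1) ^ (m * a) ≤ s ^ R := by
    calc (b + 1) ^ (m * a) ≤ (a ^ 2) ^ (m * a) := Nat.pow_le_pow_left hab _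
      _ ≤ ((s ^ q) ^ 2) ^ (m * a) := Nat.pow_le_pow_left (Nat.pow_le_pow_left has _) _
      _ = s ^ R := by
        rw [← pow_mul, ← pow_mul, hR]
        congr 1
        ring
  calc plethMult a b m (gw m g) ≤ (b + 1) ^ (m * a) := plethMult_le_pow a b m _
    _ ≤ s ^ R := hpow
    _ ≤ plethMult (2 * i * R) (2 * c) m ((4 * c * R) • om m i) := rich_rect c h R s hc hRs
    _ ≤ plethMult (2 * i * R) (a - 2 * c + 2 * c) m (gw m u + (4 * c * R) • om m i) :=
        plethMult_pt pu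
    _ = plethMult (2 * i * R) a m (gw m u + (4 * c * R) • om m i) := by rw [e1]
    _ ≤ plethMult (2 * i * R + (b - 2 * i * R)) a m
          (gw m u + (4 * c * R) • om m i + gw m v) := plethMult_mul pv
    _ = plethMult b a m (gw m g) := by rw [e2, hgw]

/-- The choice of the parameters. -/
lemma w13_num {m q N : ℕ} (hm : 1 ≤ m) (hq : 2 ≤ q) {ε : ℝ} (hqe : (q : ℝ)⁻¹ ≤ 2 * ε)
    {a K : ℕ} (hK : K = 32 * N ^ 2 * m * q) (ha1 : 1 ≤ a) (ha : (32 * K) ^ 2 ≤ a) :
    ∃ s h c : ℕ, a ≤ s ^ q ∧ (2 * m * q * a) * s ≤ h * h ∧ N * (h + 1) ≤ c ∧ 4 * c ≤ a ∧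
      (c : ℝ) ≤ (2 * K + 1) * (a : ℝ) ^ (1 / 2 + ε) := by
  have haR : (1 : ℝ) ≤ (a : ℝ) := by exact_mod_cast ha1
  have ha0 : (0 : ℝ) ≤ (a : ℝ) := by positivity
  set x : ℝ := (a : ℝ) ^ ((q : ℝ)⁻¹) with hx
  have hxq : x ^ q = a := Real.rpow_inv_natCast_pow ha0 (by omega)
  have hx1 : 1 ≤ x := Real.one_le_rpow haR (by positivity)
  have hx0 : 0 ≤ x := by linarith
  have hxx : x ^ 2 ≤ a := by
    rw [← hxq]
    exact pow_le_pow_right₀ hx1 hq
  set s := ⌈x⌉₊ with hs
  have hs1 : x ≤ s := Nat.le_ceil x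
  have hs2 : (s : ℝ) ≤ 2 * x := by
    have := Nat.ceil_lt_add_one hx0
    linarith
  have hs3 : 1 ≤ s := by
    have : (1 : ℝ) ≤ s := hx1.trans hs1
    exact_mod_cast this
  set P := (2 * m * q * a) * s with hP
  have hP1 : 1 ≤ P := by
    rw [hP]
    have : 0 < 2 * m * q * a * s := by positivity
    omega
  set t := Nat.sqrt P with ht
  have ht1 : t * t ≤ P := Nat.sqrt_le P
  have ht2 : P < (t + 1) * (t + 1) := Nat.lt_succ_sqrt P
  have ht3 : 1 ≤ t := by
    by_contra h0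
    have : t = 0 := by omega
    rw [this] at ht2
    omega
  refine ⟨s, t + 1, N * (t + 1 + 1), ?_, ht2.le, le_rfl, ?_, ?_⟩
  · have h1 : (a : ℝ) ≤ ((s ^ q : ℕ) : ℝ) := by
      rw [← hxq]
      push_cast
      exact pow_le_pow_left₀ hx0 hs1 q
    exact_mod_cast h1
  all_goals
    have hcc : ((N * (t + 1 + 1) : ℕ) : ℝ) ^ 2 ≤ K * (a * s) := by
      have h1 : (N * (t + 1 + 1)) ^ 2 ≤ K * (a * s) := by
        have h2 : (t + 1 + 1) ^ 2 ≤ 16 * P := by nlinarith
        calc (N * (t + 1 + 1)) ^ 2 = N ^ 2 * (t + 1 + 1) ^ 2 := by ring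
          _ ≤ N ^ 2 * (16 * P) := Nat.mul_le_mul_left _ h2
          _ = K * (a * s) := by rw [hP, hK]; ring
      exact_mod_cast h1
    have hcc2 : ((N * (t + 1 + 1) : ℕ) : ℝ) ^ 2 ≤ 2 * K * (a * x) := by
      refine hcc.trans ?_
      have : (a : ℝ) * s ≤ a * (2 * x) := mul_le_mul_of_nonneg_left hs2 ha0
      have hK0 : (0 : ℝ) ≤ K := by positivity
      nlinarith [mul_le_mul_of_nonneg_left this hK0]
  · have hKx : 32 * (K : ℝ) * x ≤ a := by
      have g1 : ((32 * K : ℕ) : ℝ) ^ 2 ≤ a := by exact_mod_cast ha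
      have g2 : (32 * (K : ℝ) * x) ^ 2 ≤ (a : ℝ) ^ 2 := by
        calc (32 * (K : ℝ) * x) ^ 2 = ((32 * K : ℕ) : ℝ) ^ 2 * x ^ 2 := by push_cast; ring
          _ ≤ (a : ℝ) * (a : ℝ) := mul_le_mul g1 hxx (by positivity) ha0
          _ = (a : ℝ) ^ 2 := by ring
      exact (sq_le_sq₀ (by positivity) ha0).1 g2
    have h1 : (4 * ((N * (t + 1 + 1) : ℕ) : ℝ)) ^ 2 ≤ (a : ℝ) ^ 2 := by
      calc (4 * ((N * (t + 1 + 1) : ℕ) : ℝ)) ^ 2
          = 16 * ((N * (t + 1 + 1) : ℕ) : ℝ) ^ 2 := by ring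
        _ ≤ 16 * (2 * K * (a * x)) := mul_le_mul_of_nonneg_left hcc2 (by norm_num)
        _ = (32 * K * x) * a := by ring
        _ ≤ a * a := mul_le_mul_of_nonneg_right hKx ha0
        _ = (a : ℝ) ^ 2 := by ring
    have h2 : 4 * ((N * (t + 1 + 1) : ℕ) : ℝ) ≤ (a : ℝ) := by
      exact (sq_le_sq₀ (by positivity) ha0).1 h1
    exact_mod_cast h2
  · have h3 : (a : ℝ) * x ≤ ((a : ℝ) ^ (1 / 2 + ε)) ^ 2 := by
      rw [← Real.rpow_natCast, ← Real.rpow_mul ha0, hx]
      nth_rewrite 1 [← Real.rpow_one (a : ℝ)]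
      rw [← Real.rpow_add (by linarith)]
      apply Real.rpow_le_rpow_of_exponent_le haR
      push_cast
      linarith
    have hK0 : (0 : ℝ) ≤ K := by positivity
    have hy0 : (0 : ℝ) ≤ (a : ℝ) ^ (1 / 2 + ε) := by positivity
    have h4 : ((N * (t + 1 + 1) : ℕ) : ℝ) ^ 2 ≤ ((2 * K + 1) * (a : ℝ) ^ (1 / 2 + ε)) ^ 2 := by
      rw [mul_pow]
      calc ((N * (t + 1 + 1) : ℕ) : ℝ) ^ 2 ≤ 2 * K * (a * x) := hcc2
        _ ≤ 2 * K * ((a : ℝ) ^ (1 / 2 + ε)) ^ 2 := by gcongr
        _ ≤ (2 * K + 1) ^ 2 * ((a : ℝ) ^ (1 / 2 + ε)) ^ 2 := by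
          apply mul_le_mul_of_nonneg_right _ (by positivity)
          nlinarith
    exact (sq_le_sq₀ (by positivity) (by positivity)).1 h4

/-- Row W13: a large gap `i` with `3 ≤ i`. -/
theorem gap_case_eps_of {m i : ℕ} (hi : 3 ≤ i) (him : i ≤ m) (ε : ℝ) (hε : 0 < ε)
    (pos_all : ∃ a0 : ℕ, ∀ (a B : ℕ) (g : ℕ → ℕ), a0 ≤ a → 3 * (m + 1) * a ≤ g i →
      ∑ j ∈ Finset.Icc 1 m, j * g j = a * B → Pos B a m (gw m g))
    (rich_rect : ∃ N : ℕ, ∀ c h R s : ℕ, N * (h + 1) ≤ c → R * s ≤ h * h →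
      s ^ R ≤ plethMult (2 * i * R) (2 * c) m ((4 * c * R) • om m i)) :
    ∃ C : ℝ, 0 < C ∧ ∀ (a b : ℕ) (g : ℕ → ℕ), ∑ j ∈ Finset.Icc 1 m, j * g j = a * b →
      C * a ≤ b → C * (b + (a : ℝ) ^ (3 / 2 + ε)) ≤ g i →
      plethMult a b m (gw m g) ≤ plethMult b a m (gw m g) := by
  obtain ⟨a0, hpos⟩ := pos_all
  obtain ⟨N, hrich⟩ := rich_rect
  obtain ⟨q0, hq0⟩ := exists_nat_gt (1 / (2 * ε))
  set q := q0 + 2 with hq
  have hqe : (q : ℝ)⁻¹ ≤ 2 * ε := by
    have h1 : (q0 : ℝ) ≤ q := by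
      rw [hq]; push_cast; linarith
    have h2 : 0 < 1 / (2 * ε) := by positivity
    have h3 : (q : ℝ)⁻¹ ≤ (1 / (2 * ε))⁻¹ := by
      apply inv_anti₀ h2
      linarith
    rw [one_div, inv_inv] at h3
    exact h3
  set K := 32 * N ^ 2 * m * q with hK
  set C0 := 1 + 8 * m * q * (2 * K + 1) + (32 * K) ^ 2 + 2 * a0 + 8 * i * m * q + 6 * (m + 1) +
    m * (m + 1) with hC0
  refine ⟨C0, by positivity, ?_⟩
  intro a b g hs hCa hCg
  by_cases hquad : (a - 1) ^ 2 ≤ b
  · exact foulkes_quadratic hquad _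
  have hCa' : C0 * a ≤ b := by exact_mod_cast hCa
  have ha2 : 1 ≤ a := by
    by_contra h0
    have : a = 0 := by omega
    apply hquad
    rw [this]
    simp
  have hab : b + 1 ≤ a ^ 2 := by
    have h1 : b + 1 ≤ (a - 1) ^ 2 := by omega
    exact h1.trans (Nat.pow_le_pow_left (by omega) 2)
  have hC1 : 1 ≤ C0 := by omega
  have hb1 : 1 ≤ b := by
    have : 1 * 1 ≤ C0 * a := Nat.mul_le_mul hC1 ha2
    omega
  have hpw : (0 : ℝ) ≤ (a : ℝ) ^ (3 / 2 + ε) := by positivity
  have hCb : C0 * b ≤ g i := by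
    have h1 : (C0 : ℝ) * b ≤ g i := by
      have h2 : (0 : ℝ) ≤ (C0 : ℝ) * (a : ℝ) ^ (3 / 2 + ε) := by positivity
      have h3 : (C0 : ℝ) * (b + (a : ℝ) ^ (3 / 2 + ε)) =
        C0 * b + C0 * (a : ℝ) ^ (3 / 2 + ε) := by ring
      linarith
    exact_mod_cast h1
  have hCa2 : C0 ≤ a := by
    have h1 : i * g i ≤ a * b := by
      rw [← hs]
      exact Finset.single_le_sum (f := fun j => j * g j) (fun j _ => Nat.zero_le _)
        (Finset.mem_Icc.2 ⟨by omega, him⟩)
    have h2 : C0 * b ≤ a * b := by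
      calc C0 * b ≤ g i := hCb
        _ = 1 * g i := by ring
        _ ≤ i * g i := Nat.mul_le_mul_right _ (by omega)
        _ ≤ a * b := h1
    exact Nat.le_of_mul_le_mul_right h2 hb1
  obtain ⟨s, h, c, h1, h2, h3, h4, h5⟩ := w13_num (m := m) (q := q) (N := N) (by omega) (by omega)
    hqe hK ha2 (by omega)
  refine w13_int hi him hpos hrich g hs (q := q) (s := s) (h := h) (c := c)
    (R := 2 * m * q * a) (by omega) rfl h1 h2 h3 (by omega) ?_ ?_ ?_ hab
  · calc 8 * i * m * q * a ≤ C0 * a := Nat.mul_le_mul_right a (by omega)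
      _ ≤ b := hCa'
  · calc 6 * (m + 1) * a + m * (m + 1) ≤ 6 * (m + 1) * a + m * (m + 1) * a :=
          Nat.add_le_add_left (Nat.le_mul_of_pos_right _ ha2) _
      _ = (6 * (m + 1) + m * (m + 1)) * a := by ring
      _ ≤ C0 * a := Nat.mul_le_mul_right a (by omega)
      _ ≤ b := hCa'
  · have h6 : ((4 * c * (2 * m * q * a) + b : ℕ) : ℝ) ≤ g i := by
      refine le_trans ?_ hCg
      push_cast
      have e1 : (a : ℝ) * (a : ℝ) ^ (1 / 2 + ε) = (a : ℝ) ^ (3 / 2 + ε) := by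
        nth_rewrite 1 [← Real.rpow_one (a : ℝ)]
        rw [← Real.rpow_add (by exact_mod_cast ha2)]
        congr 1
        ring
      have e2 : (4 : ℝ) * c * (2 * m * q * a) ≤ 8 * m * q * (2 * K + 1) * (a : ℝ) ^ (3 / 2 + ε) := by
        rw [← e1]
        have h7 : (0 : ℝ) ≤ 8 * m * q * a := by positivity
        calc (4 : ℝ) * c * (2 * m * q * a) = (8 * m * q * a) * c := by ring
          _ ≤ (8 * m * q * a) * ((2 * K + 1) * (a : ℝ) ^ (1 / 2 + ε)) :=
            mul_le_mul_of_nonneg_left h5 h7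
          _ = 8 * m * q * (2 * K + 1) * (a * (a : ℝ) ^ (1 / 2 + ε)) := by ring
      have e3 : (8 : ℝ) * m * q * (2 * K + 1) ≤ C0 := by
        have : 8 * m * q * (2 * K + 1) ≤ C0 := by omega
        exact_mod_cast this
      have e4 : (1 : ℝ) ≤ C0 := by exact_mod_cast hC1
      have e5 : (8 : ℝ) * m * q * (2 * K + 1) * (a : ℝ) ^ (3 / 2 + ε) ≤
          C0 * (a : ℝ) ^ (3 / 2 + ε) := mul_le_mul_of_nonneg_right e3 hpw
      have e6 : (b : ℝ) ≤ C0 * b := by nlinarith [(Nat.cast_nonneg b : (0 : ℝ) ≤ b)]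
      nlinarith
    exact_mod_cast h6

end Vale.Agent.P181.FR
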